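import Vale.Agent.P212.InvHom

/-! Torsion classes have integral invariants. -/

namespace Vale.Agent.P212

noncomputable section

variable {X : Type} [MetricSpace X] {r : ℕ}

open Classical in
/-- The invariant of a cycle as a class modulo the integers. -/
def itPhi (h : BddGeom X) {m : ℕ} [NeZero m] (T : Finset X) (g : X → X → ZMod m) (c : CycX X) :
    ℂ ⧸ AddSubgroup.zmultiples (1 : ℂ) :=
  QuotientAddGroup.mk (if h0 : ∃ t, CInv h T g c.2 t then h0.choose else 0)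

lemma it_eq {t t' : ℂ} (h : ∃ k : ℤ, t' - t = k) :
    (QuotientAddGroup.mk t : ℂ ⧸ AddSubgroup.zmultiples (1 : ℂ)) = QuotientAddGroup.mk t' := by
  obtain ⟨k, hk⟩ := h
  refine QuotientAddGroup.eq.2 ⟨k, ?_⟩
  simp only [zsmul_eq_mul, mul_one]
  linear_combination -hk

lemma it_phi {h : BddGeom X} {m R : ℕ} [NeZero m] {T : Finset X} {g : X → X → ZMod m}
    (hv : Valid R T g) (hr : r ≤ R) {Z : Cyc X r} {t : ℂ} (ht : CInv h T g Z t) :
    itPhi h T g ⟨r, Z⟩ = QuotientAddGroup.mk t := by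
  have h0 : ∃ t, CInv h T g Z t := ⟨t, ht⟩
  rw [itPhi, dif_pos h0]
  exact it_eq (CInv.unique hv hr h0.choose_spec ht)

lemma it_rel (h : BddGeom X) {x : FreeAbelianGroup (CycX X)}
    (hx : x ∈ AddSubgroup.closure {x | KXrel X x}) : ∃ R₀ : ℕ, ∀ R, R₀ ≤ R →
      ∀ (m : ℕ) [NeZero m] (T : Finset X) (g : X → X → ZMod m), Valid R T g →
        FreeAbelianGroup.lift (itPhi h T g) x = 0 := by
  induction hx using AddSubgroup.closure_induction with
  | mem x hx =>
    cases hx with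
    | htpy r Z₀ Z₁ hZ =>
      refine ⟨r, fun R hr m _ T g hv => ?_⟩
      obtain ⟨t₀, h0⟩ := CInv.exists (h := h) hv hr Z₀
      obtain ⟨t₁, h1⟩ := CInv.exists (h := h) hv hr Z₁
      rw [map_sub, FreeAbelianGroup.lift_apply_of, FreeAbelianGroup.lift_apply_of, it_phi hv hr h0,
        it_phi hv hr h1, it_eq (CInv.htpy hv hr hZ h0 h1), sub_self]
    | sum r Z Z₁ Z₂ hZ =>
      refine ⟨r, fun R hr m _ T g hv => ?_⟩
      obtain ⟨t₁, h1⟩ := CInv.exists (h := h) hv hr Z₁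
      obtain ⟨t₂, h2⟩ := CInv.exists (h := h) hv hr Z₂
      rw [map_sub, map_sub, FreeAbelianGroup.lift_apply_of, FreeAbelianGroup.lift_apply_of,
        FreeAbelianGroup.lift_apply_of, it_phi hv hr h1, it_phi hv hr h2,
        it_phi hv hr (CInv.sum hZ h1 h2), QuotientAddGroup.mk_add]
      abel
    | push r r' Z Z' hr' hZ =>
      refine ⟨r', fun R hr m _ T g hv => ?_⟩
      obtain ⟨t, h0⟩ := CInv.exists (h := h) hv (hr'.trans hr) Z
      rw [map_sub, FreeAbelianGroup.lift_apply_of, FreeAbelianGroup.lift_apply_of,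
        it_phi hv (hr'.trans hr) h0, it_phi hv hr (CInv.push hZ h0), sub_self]
  | zero => exact ⟨0, fun _ _ _ _ _ _ _ => map_zero _⟩
  | add x y _ _ hx hy =>
    obtain ⟨R₁, h1⟩ := hx
    obtain ⟨R₂, h2⟩ := hy
    refine ⟨max R₁ R₂, fun R hr m _ T g hv => ?_⟩
    rw [map_add, h1 R ((le_max_left _ _).trans hr) m T g hv,
      h2 R ((le_max_right _ _).trans hr) m T g hv, add_zero]
  | neg x _ hx =>
    obtain ⟨R₁, h1⟩ := hx
    refine ⟨R₁, fun R hr m _ T g hv => ?_⟩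
    rw [map_neg, h1 R hr m T g hv, neg_zero]

/-- A multiple of a cycle that vanishes in `KX₁` has integral invariants at large scales. -/
theorem inv_of_torsion (h : BddGeom X) (Z : Cyc X r) (j : ℤ)
    (hj : j • Pres.cls (KXrel X) ⟨r, Z⟩ = 0) : ∃ R₀ : ℕ, ∀ R, R₀ ≤ R → ∀ (m : ℕ) [NeZero m]
      (T : Finset X) (g : X → X → ZMod m), Valid R T g → ∀ t, CInv h T g Z t →
        ∃ k : ℤ, j * t = k := by
  have h1 : j • FreeAbelianGroup.of (⟨r, Z⟩ : CycX X) ∈ AddSubgroup.closure {x | KXrel X x} :=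
    (QuotientAddGroup.eq_zero_iff _).1 hj
  obtain ⟨R₀, h2⟩ := it_rel h h1
  refine ⟨max R₀ r, fun R hr m _ T g hv t ht => ?_⟩
  have h3 := h2 R ((le_max_left _ _).trans hr) m T g hv
  rw [map_zsmul, FreeAbelianGroup.lift_apply_of, it_phi hv ((le_max_right _ _).trans hr) ht,
    ← QuotientAddGroup.mk_zsmul, QuotientAddGroup.eq_zero_iff] at h3
  obtain ⟨k, hk⟩ := h3
  exact ⟨k, by simpa using hk.symm⟩

end

end Vale.Agent.P212
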