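import Vale.Agent.P212.LoopVal
import Vale.Agent.P212.InvTor
import Vale.Agent.P212.Sw
import Vale.Agent.P212.Geo4
import Vale.Agent.P212.Mu
import Vale.Agent.P212.Univ

/-! The counterexample. -/

namespace Vale.Agent.P212

noncomputable section

lemma not_ratInjective {M N : Type} [AddCommGroup M] [AddCommGroup N] (μ : M →+ N) (x : M)
    (h0 : μ x = 0) (hx : ∀ j : ℤ, j ≠ 0 → j • x ≠ 0) : ¬ RatInjective μ := by
  intro hinj
  have h1 : (x ⊗ₜ[ℤ] (1 : ℚ) : TensorProduct ℤ M ℚ) = 0 := by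
    apply hinj
    simp [h0]
  have h2 : ((1 : ℚ) ⊗ₜ[ℤ] x : TensorProduct ℤ ℚ M) = 0 := by
    simpa using congrArg (TensorProduct.comm ℤ M ℚ) h1
  have inst : IsLocalizedModule (nonZeroDivisors ℤ) (TensorProduct.mk ℤ ℚ M 1) :=
    (isLocalizedModule_iff_isBaseChange (nonZeroDivisors ℤ) ℚ _).2 (TensorProduct.isBaseChange _ _ _)
  obtain ⟨⟨j, hj⟩, h3⟩ := (IsLocalizedModule.eq_zero_iff (nonZeroDivisors ℤ)
    (TensorProduct.mk ℤ ℚ M 1)).1 h2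
  exact hx j (nonZeroDivisors.ne_zero hj) h3

theorem main : ∃ (X : Type) (_ : MetricSpace X), UnifDiscrete X ∧ BddGeom X ∧
    ∃ (A : Type) (_ : NonUnitalCStarAlgebra A) (ι : SHom (CX X) A), IsMaxCompletion ι ∧
      ∃ μ : KX1 X →+ K1 A, IsAssembly ι μ ∧ ¬ RatInjective μ := by
  obtain ⟨X, inst, ⟨G⟩⟩ := exists_geo
  have h := G.bg
  have hCD : ∀ T ∈ CX X, T ∈ DD (id : X → X) := fun T hT => ((mem_CX h).1 hT).2
  have hI : ∀ m ∈ DD (id : X → X), ∀ T ∈ CX X, m * T ∈ CX X := fun m hm T hT =>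
    (mem_CX h).2 ⟨LocCpt.mul_left h.finBalls hm ((mem_CX h).1 hT).1, mul_mem hm (hCD T hT)⟩
  obtain ⟨K, σ, A, hA, ι, hι, hσ, h1⟩ := exists_env hCD hI fun m hm => by
    obtain ⟨I, s, a, ha, rfl⟩ := exists_pieces h hm
    exact bd_of_pieces hI s a ha
  have h2 : ∀ T : DD (id : X → X), LocCpt T.1 → σ T ∈ A := fun T hT => by
    have := (ι ⟨T.1, (mem_CX h).2 ⟨hT, T.2⟩⟩).2
    rwa [hσ] at this
  obtain ⟨μ, hμ, hμ'⟩ := exists_mu σ h1 h2 h ι fun T _ => hσ T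
  obtain ⟨Ω, _, ⟨τ⟩⟩ := exists_toep
  choose γ ψ hγ using fun n => exists_loopMap G.lo n τ.ζ τ.norm_ζ
  obtain ⟨S, Z, hZ⟩ := exists_loopCyc τ γ fun f _ hε => onLoop_small G.lo hγ f hε
  refine ⟨X, inst, G.ud, h, A, inferInstance, ι, hι, μ, hμ,
    not_ratInjective μ (Pres.cls (KXrel X) ⟨1, Z⟩) ?_ fun j hj h0 => ?_⟩
  · rw [hμ']
    refine swindle G.sw h gam_hasQ σ h1 h2 _ (fun x x' hx => ?_) (star_az Z hZ.sa) (locCpt_az Z)
    obtain ⟨z, k1, k2⟩ := entry_az_ne Z hx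
    obtain ⟨n, k, δ, hδ, rfl, rfl⟩ := loopCyc_supp h G.lo hγ hZ k1
    obtain ⟨n', k', δ', hδ', e, rfl⟩ := loopCyc_supp h G.lo hγ hZ k2
    obtain ⟨rfl, hd⟩ := (G.lo.lp_eq _ _ _ _).1 e
    obtain ⟨y, hy, hy'⟩ := G.bot_lp n k
    refine ⟨y, hy, δ + δ', (abs_add_le _ _).trans (by linarith), by simpa using hy' 0, ?_⟩
    rw [← hy', G.lo.lp_eq]
    refine ⟨rfl, ?_⟩
    rw [show k' + δ' - (k + (δ + δ')) = -(k + δ - k') by ring, dvd_neg]
    exact hd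
  · obtain ⟨R₀, hR⟩ := inv_of_torsion h Z j h0
    obtain ⟨n, m, T, g, hm, hv, hl⟩ := G.coc (R₀ + 1) (j.natAbs + 1)
    have : NeZero m := ⟨by omega⟩
    obtain ⟨ε, hε, ht⟩ := cinv_loop h G.lo hγ hZ (by omega) (by omega) hv hl
    obtain ⟨k, hk⟩ := hR (R₀ + 1) (by omega) m T g hv _ ht
    have hm0 : (m : ℂ) ≠ 0 := by exact_mod_cast NeZero.ne m
    have e1 : j * ε = k * m := by
      have : (j : ℂ) * ε = k * m := by rw [← hk]; field_simp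
      exact_mod_cast this
    have e2 : (m : ℤ) ∣ j := by
      rcases hε with rfl | rfl
      · exact ⟨k, by linarith⟩
      · exact ⟨-k, by linarith⟩
    have := Int.natAbs_le_of_dvd_ne_zero e2 hj
    simp only [Int.natAbs_natCast] at this
    omega

end

end Vale.Agent.P212
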