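import Vale.Agent.P212.KosB

/-! The secondary invariant of a cyclic family of essential idempotents. -/

namespace Vale.Agent.P212

open Vale.Agent.P089A

noncomputable section

lemma Inv_solve {m : ℕ} [NeZero m] (μ : ZMod m → ℂ) (h : ∑ i, μ i = 0) :
    ∃ lam : ZMod m → ℂ, ∑ i, lam i = 0 ∧ ∀ i, lam (i + 1) - lam i = μ (i + 1) := by
  let L : (ZMod m → ℂ) →ₗ[ℂ] ZMod m → ℂ :=
    ⟨⟨fun x i => x (i + 1) - x i + ∑ j, x j, fun x y => funext fun i => by
      simp only [Pi.add_apply, Finset.sum_add_distrib]; ring⟩, fun c x => funext fun i => by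
      simp only [Pi.smul_apply, smul_eq_mul, RingHom.id_apply, ← Finset.mul_sum]; ring⟩
  have hm : (m : ℂ) ≠ 0 := Nat.cast_ne_zero.2 (NeZero.ne m)
  have hs : ∀ x, ∑ i, L x i = 0 → ∑ i, x i = 0 := fun x hx => by
    have e : ∑ i, x (i + 1) = ∑ i, x i := Equiv.sum_comp (Equiv.addRight (1 : ZMod m)) x
    simpa [L, Finset.sum_add_distrib, e, hm] using hx
  have hi : Function.Injective L := (injective_iff_map_eq_zero L).2 fun x hx => by
    have h1 := hs x (by simp [hx])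
    have h2 : ∀ n : ℕ, x n = x 0 := fun n => by
      induction n with
      | zero => rw [Nat.cast_zero]
      | succ n ih =>
        have := congrFun hx n
        simp only [L, LinearMap.coe_mk, AddHom.coe_mk, h1, add_zero, Pi.zero_apply] at this
        rw [Nat.cast_succ, sub_eq_zero.1 this, ih]
    have h3 : ∀ i, x i = x 0 := fun i => by rw [← h2 i.val, ZMod.natCast_zmod_val]
    rw [Finset.sum_congr rfl fun i _ => h3 i] at h1
    exact funext fun i => (h3 i).trans (by simpa [hm] using h1)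
  obtain ⟨x, hx⟩ := LinearMap.surjective_of_injective hi fun i => μ (i + 1)
  have h1 := hs x (hx ▸ (Equiv.sum_comp (Equiv.addRight (1 : ZMod m)) μ).trans h)
  exact ⟨x, h1, fun i => by simpa [L, h1] using congrFun hx i⟩

lemma Inv_succ {m N : ℕ} (k : ZMod m → ℂ) (i : ZMod m) :
    ∑ σ : Cube (N + 1), (par σ : ℂ) * k (i + dgr σ) = ∑ σ : Cube N, (par σ : ℂ) * k (i + dgr σ) -
      ∑ σ : Cube N, (par σ : ℂ) * k (i + 1 + dgr σ) := by
  rw [← (Fin.consEquiv fun _ => Bool).sum_comp, Fintype.sum_prod_type]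
  simp [par, dgr, Fin.prod_univ_succ, Fin.sum_univ_succ, Fin.consEquiv, add_assoc, sub_eq_neg_add,
    -Finset.sum_boole]

lemma exists_lam (m : ℕ) [NeZero m] (N : ℕ) : ∃ lam : ZMod m → ℂ, ∑ i, lam i = 0 ∧
    ∀ k : ZMod m → ℂ, ∑ i, lam i * ∑ σ : Cube N, (par σ : ℂ) * k (i + dgr σ) = k 1 - k 0 := by
  induction N with
  | zero =>
    refine ⟨Pi.single 1 1 - Pi.single 0 1, by simp, fun k => ?_⟩
    simp [par, dgr, sub_mul, Pi.single_apply]
  | succ N ih =>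
    obtain ⟨μ, h0, h1⟩ := ih
    obtain ⟨lam, h2, h3⟩ := Inv_solve μ h0
    refine ⟨lam, h2, fun k => ?_⟩
    simp only [Inv_succ, mul_sub, Finset.sum_sub_distrib]
    rw [← h1, ← Equiv.sum_comp (Equiv.addRight (1 : ZMod m)),
      ← Equiv.sum_comp (Equiv.addRight (1 : ZMod m)) fun i => μ i * _]
    simp only [Equiv.coe_addRight, ← h3, sub_mul, Finset.sum_sub_distrib]

/-- The weights of the invariant. -/
def lam (m : ℕ) [NeZero m] (N : ℕ) : ZMod m → ℂ := (exists_lam m N).choose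

lemma sum_lam (m : ℕ) [NeZero m] (N : ℕ) : ∑ i, lam m N i = 0 := (exists_lam m N).choose_spec.1

lemma lam_spec {m : ℕ} [NeZero m] (N : ℕ) (k : ZMod m → ℂ) :
    ∑ i, lam m N i * ∑ σ : Cube N, (par σ : ℂ) * k (i + dgr σ) = k 1 - k 0 :=
  (exists_lam m N).choose_spec.2 k

variable {R : Type} [NormedRing R] [CompleteSpace R] {m N : ℕ} [NeZero m]

/-- The algebraic relations of the projections `P j` and the local isomorphisms `A v j' j`. -/
structure KData (ν : NTR R) (P : ZMod m → R) (A : Fin N → ZMod m → ZMod m → R) (E : R) :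
    Prop where
  idem : ∀ j, P j * P j = P j
  left : ∀ v j' j, P j' * A v j' j = A v j' j
  right : ∀ v j' j, A v j' j * P j = A v j' j
  total : ∀ j (j' : Fin N → ZMod m), ∑ v, A v j (j' v) * A v (j' v) j = P j
  swap : ∀ v w j j₁ j₂ j', j₁ + j₂ = j + j' → A v j' j₁ * A w j₁ j = A w j' j₂ * A v j₂ j
  commP : ∀ j, P j * E - E * P j ∈ ν.K
  commA : ∀ v j' j, A v j' j * E - E * A v j' j ∈ ν.K
  sq : ∀ j, P j * (E * E - E) ∈ ν.K

/-- Idempotent lifts of the essential idempotents `P j * E`. -/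
def IsLift (ν : NTR R) (P : ZMod m → R) (E : R) (e : ZMod m → R) : Prop :=
  ∀ j, e j * e j = e j ∧ e j - P j * E ∈ ν.K

/-- The invariant computed from the lifts `e`. -/
def InvVia (ν : NTR R) (A : Fin N → ZMod m → ZMod m → R) (e : ZMod m → R) (t : ℂ) : Prop :=
  ∃ v : ZMod m → ℂ, (∀ i, KInd ν (fun σ => e (i + dgr σ))
    (fun l σ => A l (i + dgr (flp l σ)) (i + dgr σ)) (v i)) ∧ t = ∑ i, lam m N i * v i

/-- `t` represents the invariant. -/
def IsInv (ν : NTR R) (P : ZMod m → R) (A : Fin N → ZMod m → ZMod m → R) (E : R) (t : ℂ) : Prop :=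
  ∃ e, IsLift ν P E e ∧ InvVia ν A e t

variable {ν : NTR R} {P : ZMod m → R} {A : Fin N → ZMod m → ZMod m → R} {E E' : R}
  {e e' : ZMod m → R} {t t' : ℂ}

omit [NeZero m] in
lemma Inv_comm (h : KData ν P A E) (he : IsLift ν P E e) (v : Fin N) (j' j : ZMod m) :
    e j' * A v j' j - A v j' j * e j ∈ ν.K := by
  have h1 := (TR.sub_mem_K (τ := ν.toTR)).1 (he j).2
  have h2 := (TR.sub_mem_K (τ := ν.toTR)).1 (he j').2
  have h3 := (TR.sub_mem_K (τ := ν.toTR)).1 (h.commA v j' j)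
  refine (TR.sub_mem_K (τ := ν.toTR)).2 ?_
  rw [map_mul, map_mul, h1, h2, ← map_mul, ← map_mul, TR.as (h.right v j' j), mul_assoc, map_mul,
    ← h3, ← map_mul, TR.as (h.left v j' j)]

lemma Inv_exists {R : Type} [Ring R] {τ : TR R} {e f T S S' : R} (he : e * e = e) (hf : f * f = f)
    (h1 : f * T = T) (h2 : T * e = T) (h3 : e - S * T ∈ τ.K) (h4 : f - T * S' ∈ τ.K) :
    ∃ t, τ.Ind e f T t := by
  refine TR.Ind.exists (S := S * f) he hf h1 h2 (by rwa [mul_assoc, h1]) ?_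
  have e1 : f - T * (S * f) = (f - T * S') + T * (e - S * T) * S' - T * S * (f - T * S') := by
    simp only [mul_sub, sub_mul, mul_assoc, TR.as h2]; abel
  rw [e1]
  exact τ.K.sub_mem (τ.K.add_mem h4 (τ.K.mul_mem_right _ _ (τ.K.mul_mem_left _ _ h3)))
    (τ.K.mul_mem_left _ _ h4)

lemma Inv_unit {a b x : R} (ha : a * a = a) (hx : ‖a * x * a‖ < 1) (h : a - b - x ∈ ν.K) :
    (∃ S, a - S * (b * a) ∈ ν.K) ∧ ∃ S, a - a * b * S ∈ ν.K := by
  obtain ⟨u, hu⟩ := isUnit_one_sub_of_norm_lt_one hx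
  have k := ν.K.mul_mem_right _ a (ν.K.mul_mem_left a _ h)
  refine ⟨⟨(u⁻¹ : Rˣ) * a, ?_⟩, a * (u⁻¹ : Rˣ), ?_⟩
  · have e1 : a * (a - b - x) * a = u * a - a * (b * a) := by
      rw [hu]; simp only [mul_sub, sub_mul, mul_assoc, ha, one_mul]; abel
    have := ν.K.mul_mem_left (u⁻¹ : Rˣ) _ k
    rwa [e1, mul_sub, Units.inv_mul_cancel_left, ← mul_assoc] at this
  · have e1 : a * (a - b - x) * a = a * u - a * b * a := by
      rw [hu]; simp only [mul_sub, sub_mul, mul_assoc, ha, TR.as ha, mul_one]; abel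
    have := ν.K.mul_mem_right _ (u⁻¹ : Rˣ) k
    rwa [e1, sub_mul, Units.mul_inv_cancel_right, mul_assoc] at this

theorem InvVia.exists (h : KData ν P A E) (he : IsLift ν P E e) : ∃ t, InvVia ν A e t := by
  have key : ∀ i : ZMod m, ∃ t, KInd ν (fun σ => e (i + dgr σ))
      (fun l σ => A l (i + dgr (flp l σ)) (i + dgr σ)) t := fun i => by
    refine KInd.exists (fun σ => (he _).1) (fun l σ => Inv_comm h he _ _ _) (fun σ => ?_)
      fun σ j l hl => ?_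
    · simp only [flp_flp]
      rw [h.total _ fun l => i + dgr (flp l σ), ← sub_sub_sub_cancel_right _ _ (P _ * E)]
      refine ν.K.sub_mem ?_ (he _).2
      have := ν.K.mul_mem_left (P (i + dgr σ)) _ (he (i + dgr σ)).2
      rwa [mul_sub, TR.as (h.idem _)] at this
    · rw [flp_comm hl]
      refine h.swap _ _ _ _ _ _ ?_
      have h1 := dgr_flp j σ
      have h2 := dgr_flp l σ
      have h3 := dgr_flp j (flp l σ)
      rw [flp_ne hl.symm] at h3
      rw [add_add_add_comm, add_add_add_comm i _ i, ← Nat.cast_add, ← Nat.cast_add,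
        show dgr (flp j σ) + dgr (flp l σ) = dgr σ + dgr (flp j (flp l σ)) by omega]
  choose v hv using key
  exact ⟨_, v, hv, rfl⟩

/-- Comparison of the invariants of two nearby systems. -/
theorem InvVia.compare (hint : ∀ e f T t, ν.toTR.Ind e f T t → ∃ k : ℤ, t = k)
    (h : KData ν P A E) (h' : KData ν P A E') (he : IsLift ν P E e) (he' : IsLift ν P E' e')
    (hn : ∀ j, ‖e j * (P j * (E - E')) * e j‖ < 1) (hn' : ∀ j, ‖e' j * (P j * (E' - E)) * e' j‖ < 1)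
    (ht : InvVia ν A e t) (ht' : InvVia ν A e' t') : ∃ k : ℤ, t' - t = k := by
  have d : ∀ {E E' : R} {e e' : ZMod m → R}, IsLift ν P E e → IsLift ν P E' e' → ∀ j,
      e j - e' j - P j * (E - E') ∈ ν.K := fun he he' j => by
    rw [mul_sub, ← sub_sub_sub_comm]
    exact ν.K.sub_mem (he j).2 (he' j).2
  have key : ∀ j, ∃ k, ν.toTR.Ind (e j) (e' j) (e' j * e j) k := fun j => by
    obtain ⟨S, h1⟩ := (Inv_unit (he j).1 (hn j) (d he he' j)).1
    obtain ⟨S', h2⟩ := (Inv_unit (he' j).1 (hn' j) (d he' he j)).2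
    exact Inv_exists (he j).1 (he' j).1 (TR.as (he' j).1 _) (by rw [mul_assoc, (he j).1]) h1 h2
  choose k hk using key
  obtain ⟨v, hv, rfl⟩ := ht
  obtain ⟨v', hv', rfl⟩ := ht'
  have e1 : ∀ i, v' i = v i - ∑ σ : Cube N, (par σ : ℂ) * k (i + dgr σ) := fun i =>
    (hv i).compare (hv' i) _ _ (fun σ => hk _) fun l σ => by
      have h1 := (TR.sub_mem_K (τ := ν.toTR)).1 (Inv_comm h he l (i + dgr (flp l σ)) (i + dgr σ))
      have h2 := (TR.sub_mem_K (τ := ν.toTR)).1 (Inv_comm h' he' l (i + dgr (flp l σ)) (i + dgr σ))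
      have h3 := fun j => congrArg (RingCon.mk' ν.toTR.K.ringCon) (he j).1
      have h4 := fun j => congrArg (RingCon.mk' ν.toTR.K.ringCon) (he' j).1
      refine (TR.sub_mem_K (τ := ν.toTR)).2 ?_
      simp only [map_mul] at h1 h2 h3 h4 ⊢
      simp only [mul_assoc, TR.as h1, TR.as h2.symm, TR.as (h4 _), h3]
  obtain ⟨k0, h0⟩ := hint _ _ _ _ (hk 0)
  obtain ⟨k1, h1⟩ := hint _ _ _ _ (hk 1)
  refine ⟨k0 - k1, ?_⟩
  simp only [e1, mul_sub, Finset.sum_sub_distrib, lam_spec, h0, h1]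
  push_cast
  ring

theorem IsInv.unique (hint : ∀ e f T t, ν.toTR.Ind e f T t → ∃ k : ℤ, t = k)
    (h : KData ν P A E) (ht : IsInv ν P A E t) (ht' : IsInv ν P A E t') : ∃ k : ℤ, t' - t = k := by
  obtain ⟨e, he, ht⟩ := ht
  obtain ⟨e', he', ht'⟩ := ht'
  exact InvVia.compare hint h h he he' (by simp) (by simp) ht ht'

omit [CompleteSpace R] in
lemma Inv_conj (ν : NTR R) {V W : R} (h : W * V = 1) : ∃ Φ : R →ₙ+* R,
    (∀ x, Φ x = V * x * W) ∧ ∀ x ∈ ν.F, Φ x ∈ ν.F ∧ ν.tr (Φ x) = ν.tr x :=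
  ⟨⟨⟨fun x => V * x * W, fun x y => by simp only [mul_assoc, TR.as h, one_mul]⟩, by simp,
    fun x y => by simp only [mul_add, add_mul]⟩, fun _ => rfl, fun x hx =>
    ⟨ν.F.mul_mem_right _ _ (ν.F.mul_mem_left _ _ hx), (ν.tr_comm _ (ν.F.mul_mem_left _ _ hx) _).trans
      (by rw [TR.as h, one_mul])⟩⟩

/-- Additivity under block sums. -/
theorem IsInv.block {P₁ P₂ : ZMod m → R} {A₁ A₂ : Fin N → ZMod m → ZMod m → R} {E₁ E₂ : R}
    {t₁ t₂ : ℂ} {V₁ W₁ V₂ W₂ : R} (h11 : W₁ * V₁ = 1) (h22 : W₂ * V₂ = 1) (h12 : W₁ * V₂ = 0)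
    (h21 : W₂ * V₁ = 0) (hP : ∀ j, P j = V₁ * P₁ j * W₁ + V₂ * P₂ j * W₂)
    (hA : ∀ v j' j, A v j' j = V₁ * A₁ v j' j * W₁ + V₂ * A₂ v j' j * W₂)
    (hE : E = V₁ * E₁ * W₁ + V₂ * E₂ * W₂) (h₁ : IsInv ν P₁ A₁ E₁ t₁) (h₂ : IsInv ν P₂ A₂ E₂ t₂) :
    IsInv ν P A E (t₁ + t₂) := by
  obtain ⟨e₁, he₁, v₁, hv₁, rfl⟩ := h₁
  obtain ⟨e₂, he₂, v₂, hv₂, rfl⟩ := h₂
  obtain ⟨Φ₁, p₁, q₁⟩ := Inv_conj ν h11
  obtain ⟨Φ₂, p₂, q₂⟩ := Inv_conj ν h22
  have o1 : ∀ x y, Φ₁ x * Φ₂ y = 0 := fun x y => by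
    simp only [p₁, p₂, mul_assoc, TR.as h12, zero_mul, mul_zero]
  have o2 : ∀ x y, Φ₂ x * Φ₁ y = 0 := fun x y => by
    simp only [p₁, p₂, mul_assoc, TR.as h21, zero_mul, mul_zero]
  have o3 : ∀ x y x' y', (Φ₁ x + Φ₂ y) * (Φ₁ x' + Φ₂ y') = Φ₁ (x * x') + Φ₂ (y * y') := by
    simp [add_mul, mul_add, o1, o2]
  simp only [← p₁, ← p₂] at hP hA hE
  refine ⟨fun j => Φ₁ (e₁ j) + Φ₂ (e₂ j), fun j => ⟨by rw [o3, (he₁ j).1, (he₂ j).1], ?_⟩,
    v₁ + v₂, fun i => ?_, by simp only [Pi.add_apply, mul_add, Finset.sum_add_distrib]⟩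
  · rw [hP, hE, o3, add_sub_add_comm, ← map_sub, ← map_sub, p₁, p₂]
    exact ν.K.add_mem (ν.K.mul_mem_right _ _ (ν.K.mul_mem_left _ _ (he₁ j).2))
      (ν.K.mul_mem_right _ _ (ν.K.mul_mem_left _ _ (he₂ j).2))
  · simp only [hA]
    exact ((hv₁ i).map Φ₁ q₁).add ((hv₂ i).map Φ₂ q₂) (fun _ => o1 _ _) (fun _ => o2 _ _)
      (fun _ _ _ => o1 _ _) (fun _ _ _ => o2 _ _) (fun _ _ => o1 _ _) fun _ _ => o2 _ _

end

end Vale.Agent.P212
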