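import Vale.Agent.P212.Cpt
import Vale.Agent.P089A.TR

/-! Finite rank operators, their trace, and integrality of the index. -/

namespace Vale.Agent.P212

open Vale.Agent.P089A

noncomputable section

variable {H : Hilb}

open InnerProductSpace in
lemma ntr_wd {ι κ : Type} [Fintype ι] [Fintype κ] (a b : ι → H.car) (a' b' : κ → H.car)
    (h : ∑ i, (rankOne ℂ (a i) (b i) : Op H) = ∑ i, rankOne ℂ (a' i) (b' i)) :
    ∑ i, inner ℂ (b i) (a i) = ∑ i, inner ℂ (b' i) (a' i) := by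
  classical
  obtain ⟨Q, -, hQ, n, x, e⟩ := Cpt.exists_proj (Finset.univ.image a ∪ Finset.univ.image a')
  have key : ∀ {ι : Type} [Fintype ι] (a b : ι → H.car), (∀ i, Q (a i) = a i) →
      ∑ i, inner ℂ (b i) (a i) =
        ∑ k, inner ℂ (x k) ((∑ i, (rankOne ℂ (a i) (b i) : Op H)) (x k)) := fun a b ha => by
    simp only [sum_apply, rankOne_apply, inner_sum, inner_smul_right]
    rw [Finset.sum_comm]
    refine Finset.sum_congr rfl fun i _ => ?_
    conv_lhs => rw [← ha i, e]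
    simp only [sum_apply, rankOne_apply, inner_sum, inner_smul_right, mul_comm]
  rw [key a b fun i => hQ _ (by simp), key a' b' fun i => hQ _ (by simp), h]

/-- Finite rank operators. -/
def NtrFin (T : Op H) : Prop :=
  ∃ (r : ℕ) (a b : Fin r → H.car), T = ∑ i, InnerProductSpace.rankOne ℂ (a i) (b i)

open Classical in
/-- The trace of a finite rank operator. -/
def ntrTr (T : Op H) : ℂ :=
  if h : NtrFin T then ∑ i, inner ℂ (h.choose_spec.choose_spec.choose i) (h.choose_spec.choose i)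
  else 0

open InnerProductSpace in
lemma ntr_spec {ι : Type} [Fintype ι] (a b : ι → H.car) :
    NtrFin (∑ i, (rankOne ℂ (a i) (b i) : Op H)) ∧
      ntrTr (∑ i, (rankOne ℂ (a i) (b i) : Op H)) = ∑ i, inner ℂ (b i) (a i) := by
  have h : NtrFin (∑ i, (rankOne ℂ (a i) (b i) : Op H)) :=
    ⟨_, _, _, ((Fintype.equivFin ι).symm.sum_comp fun i => (rankOne ℂ (a i) (b i) : Op H)).symm⟩
  refine ⟨h, ?_⟩
  rw [ntrTr, dif_pos h]
  exact (ntr_wd _ _ _ _ h.choose_spec.choose_spec.choose_spec).symm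

open InnerProductSpace in
lemma ntr_add {ι κ : Type} [Fintype ι] [Fintype κ] (a b : ι → H.car) (a' b' : κ → H.car) :
    ∑ i, (rankOne ℂ (a i) (b i) : Op H) + ∑ i, rankOne ℂ (a' i) (b' i) =
      ∑ i, rankOne ℂ (Sum.elim a a' i) (Sum.elim b b' i) := by
  rw [Fintype.sum_sum_type]
  rfl

open InnerProductSpace in
lemma ntr_mul_left {ι : Type} [Fintype ι] (a b : ι → H.car) (S : Op H) :
    S * ∑ i, (rankOne ℂ (a i) (b i) : Op H) = ∑ i, rankOne ℂ (S (a i)) (b i) := by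
  rw [Finset.mul_sum]
  exact Finset.sum_congr rfl fun i _ => comp_rankOne _ _ _

open InnerProductSpace in
lemma ntr_mul_right {ι : Type} [Fintype ι] (a b : ι → H.car) (S : Op H) :
    (∑ i, (rankOne ℂ (a i) (b i) : Op H)) * S = ∑ i, rankOne ℂ (a i) (adj S (b i)) := by
  rw [Finset.sum_mul]
  exact Finset.sum_congr rfl fun i _ => rankOne_comp _ _ _

lemma ntr_left {T : Op H} (h : NtrFin T) (S : Op H) : NtrFin (S * T) := by
  obtain ⟨r, a, b, rfl⟩ := h
  exact ⟨r, _, _, ntr_mul_left a b S⟩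

theorem exists_ntr (H : Hilb) : ∃ ν : NTR (Op H), (∀ T, T ∈ ν.K ↔ Cpt T) ∧
    (∀ T, T ∈ ν.F ↔ ∃ (r : ℕ) (a b : Fin r → H.car),
      T = ∑ i, InnerProductSpace.rankOne ℂ (a i) (b i)) ∧
    ∀ a b : H.car, ν.tr (InnerProductSpace.rankOne ℂ a b) = inner ℂ b a := by
  let F : TwoSidedIdeal (Op H) := TwoSidedIdeal.mk' {T | NtrFin T} ⟨0, 0, 0, rfl⟩
    (by
      rintro _ _ ⟨r, a, b, rfl⟩ ⟨r', a', b', rfl⟩
      rw [ntr_add]
      exact (ntr_spec _ _).1)
    (fun {x} h => by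
      rw [← neg_one_mul]
      exact ntr_left h _)
    (fun h => ntr_left h _)
    (by
      rintro _ S ⟨r, a, b, rfl⟩
      exact ⟨r, _, _, ntr_mul_right a b S⟩)
  let K : TwoSidedIdeal (Op H) := TwoSidedIdeal.mk' {T | Cpt T} Cpt.zero Cpt.add Cpt.neg
    (fun h => h.mul_left _) fun h => h.mul_right _
  have hF : ∀ T, T ∈ F ↔ NtrFin T := fun T => TwoSidedIdeal.mem_mk' _ _ _ _ _ _ T
  have hK : ∀ T, T ∈ K ↔ Cpt T := fun T => TwoSidedIdeal.mem_mk' _ _ _ _ _ _ T
  refine ⟨⟨F, K, ntrTr, fun x hx => ?_, fun x hx y hy => ?_, fun x hx y => ?_,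
    fun k hk ε hε => ?_⟩, hK, hF, fun a b => ?_⟩
  · obtain ⟨r, a, b, rfl⟩ := (hF _).1 hx
    exact (hK _).2 (Cpt.sum _ _ fun i _ => Cpt.rankOne _ _)
  · obtain ⟨r, a, b, rfl⟩ := (hF _).1 hx
    obtain ⟨r', a', b', rfl⟩ := (hF _).1 hy
    rw [ntr_add, (ntr_spec _ _).2, (ntr_spec _ _).2, (ntr_spec _ _).2, Fintype.sum_sum_type]
    rfl
  · obtain ⟨r, a, b, rfl⟩ := (hF _).1 hx
    rw [ntr_mul_left, ntr_mul_right, (ntr_spec _ _).2, (ntr_spec _ _).2]
    exact Finset.sum_congr rfl fun i _ => inner_adj_left _ _ _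
  · obtain ⟨r, a, b, h⟩ := ((hK _).1 hk).approx hε
    exact ⟨_, (hF _).2 ⟨r, a, b, rfl⟩, h⟩
  · simpa using (ntr_spec (fun _ : Unit => a) fun _ => b).2

/-- Finite rank operators, compact operators and the trace. -/
def ntr (H : Hilb) : NTR (Op H) := (exists_ntr H).choose

lemma mem_K {T : Op H} : T ∈ (ntr H).K ↔ Cpt T := (exists_ntr H).choose_spec.1 T

lemma mem_F {T : Op H} : T ∈ (ntr H).F ↔ ∃ (r : ℕ) (a b : Fin r → H.car),
    T = ∑ i, InnerProductSpace.rankOne ℂ (a i) (b i) := (exists_ntr H).choose_spec.2.1 T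

lemma tr_rankOne (a b : H.car) : (ntr H).tr (InnerProductSpace.rankOne ℂ a b) = inner ℂ b a :=
  (exists_ntr H).choose_spec.2.2 a b

lemma rankOne_mem_F (a b : H.car) : InnerProductSpace.rankOne ℂ a b ∈ (ntr H).F :=
  mem_F.2 ⟨1, fun _ => a, fun _ => b, by simp⟩

lemma ntr_idem {m : ℕ} (c : Matrix (Fin m) (Fin m) ℂ) (h : c * c = c) :
    ∃ k : ℕ, ∑ i, c i i = k := by
  have h1 : IsIdempotentElem (Matrix.toLin' c) := by
    rw [IsIdempotentElem, Module.End.mul_eq_comp, ← Matrix.toLin'_mul, h]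
  exact ⟨_, (Matrix.trace_toLin'_eq c).symm.trans (LinearMap.IsIdempotentElem.isProj_range _ h1).trace⟩

/-- Fredholm indices are integers. -/
theorem ind_int {e f T : Op H} {t : ℂ} (h : (ntr H).toTR.Ind e f T t) : ∃ k : ℤ, t = k := by
  rcases subsingleton_or_nontrivial H.car with h0 | h0
  · obtain ⟨-, -, -, -, S, -, -, rfl⟩ := h
    exact ⟨0, by rw [Subsingleton.elim (e - S * T) (f - T * S), sub_self, Int.cast_zero]⟩
  obtain ⟨z, hz⟩ := exists_norm_eq H.car zero_le_one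
  have hzz : inner ℂ z z = 1 := by simp [hz]
  have hε : InnerProductSpace.rankOne ℂ z z * InnerProductSpace.rankOne ℂ z z =
      (InnerProductSpace.rankOne ℂ z z : Op H) := InnerProductSpace.isIdempotentElem_rankOne_self hz
  obtain ⟨r, m, b, hb, hb', ht⟩ := h.idem hε (rankOne_mem_F z z) fun x hx => by
    obtain ⟨r, a, b, rfl⟩ := mem_F.1 hx
    refine ⟨r, fun i => InnerProductSpace.rankOne ℂ (a i) z,
      fun i => InnerProductSpace.rankOne ℂ z (b i), Finset.sum_congr rfl fun i _ => ?_⟩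
    ext v
    simp [hz]
  have h1 : ∀ i j, b i j = InnerProductSpace.rankOne ℂ (inner ℂ z (b i j z) • z) z := fun i j => by
    conv_lhs => rw [← hb' i j]
    ext v
    simp [smul_smul, mul_comm]
  have h2 : ∀ i j, b i j z = inner ℂ z (b i j z) • z := fun i j => by
    conv_lhs => rw [h1 i j]
    simp [hz]
  obtain ⟨k, hk⟩ := ntr_idem (Matrix.of fun i j => inner ℂ z (b i j z)) (by
    ext i j
    simp only [Matrix.mul_apply, Matrix.of_apply]
    conv_rhs => rw [← hb, Matrix.mul_apply, sum_apply, inner_sum]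
    refine Finset.sum_congr rfl fun l _ => ?_
    conv_rhs => rw [mul_apply_eq_comp, h2 l j, map_smul, inner_smul_right, mul_comm])
  have h3 : ∀ i, (ntr H).tr (b i i) = inner ℂ z (b i i z) := fun i => by
    conv_lhs => rw [h1 i i]
    rw [tr_rankOne, inner_smul_right, hzz, mul_one]
  have h4 : t = ∑ i, (ntr H).tr (b i i) - r * (ntr H).tr (InnerProductSpace.rankOne ℂ z z) := ht
  refine ⟨k - r, ?_⟩
  rw [h4, tr_rankOne, hzz, mul_one, Finset.sum_congr rfl fun i _ => h3 i]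
  push_cast
  exact congrArg (· - (r : ℂ)) hk

end

end Vale.Agent.P212
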