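import Vale.Agent.P212.Inv
import Vale.Agent.P212.Rips
import Vale.Agent.P212.Lift
import Vale.Agent.P212.Ntr
import Vale.Agent.P212.Iface

/-! The secondary invariant of a cycle twisted by a flat line bundle. -/

namespace Vale.Agent.P212

open Vale.Agent.P089A

noncomputable section

section mats

variable {X : Type} {m : ℕ} [NeZero m] (T : Finset X) (g : X → X → ZMod m)

/-- The projection onto the `j`-th power of the line bundle. -/
def Pm (p : X → X → Op HN) (j : ZMod m) : Op (l2 X HN) :=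
  mat T fun x y => ZMod.stdAddChar (j * g x y) • p x y

/-- The local isomorphism between powers of the line bundle over the star of the `v`-th vertex. -/
def Am (q : X → X → X → Op HN) (v : Fin T.card) (j' j : ZMod m) : Op (l2 X HN) :=
  mat T fun x y => ZMod.stdAddChar (j' * g x (T.equivFin.symm v) + j * g (T.equivFin.symm v) y) •
    q x (T.equivFin.symm v) y

/-- The self-adjoint essential projection of a cycle. -/
def Er (F : Op HN) : Op HN := (1 / 2 : ℂ) • 1 + (1 / 4 : ℂ) • (F + star F)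

end mats

variable {X : Type} [MetricSpace X] {m : ℕ} [NeZero m] {R r : ℕ}

/-- `t` represents the invariant of the cycle `Z`. -/
def CInv (h : BddGeom X) (T : Finset X) (g : X → X → ZMod m) (Z : Cyc X r) (t : ℂ) : Prop :=
  IsInv (ntr (l2 X HN)) (Pm T g fun x y => Z.π (sq h r x * sq h r y))
    (Am T g fun x v y => Z.π (sq h r x * sq h r v * sq h r y)) (dg X HN (Er Z.F)) t

variable {h : BddGeom X} {T : Finset X} {g : X → X → ZMod m}

omit [NeZero m] in
lemma Valid.self (hv : Valid R T g) {x : X} (hx : x ∈ T) : g x x = 0 := by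
  have h0 : dist x x ≤ (R : ℝ) := by simp
  simpa using hv.coc x hx x hx x hx h0 h0 h0

lemma cpt_comm_Er (Z : Cyc X r) (f : C0 (Rips X r)) : Cpt (Z.π f * Er Z.F - Er Z.F * Z.π f) := by
  have h1 := (Cpt.sub (Z.c_comm f) (Cpt.star (Z.c_comm (star f)))).smul (1 / 4 : ℂ)
  refine (congrArg Cpt ?_).mp h1
  rw [star_sub, star_mul, star_mul, ← map_star, star_star, Er]
  simp only [mul_smul_comm, smul_mul_assoc, mul_add, add_mul, mul_one, one_mul]
  module

lemma cpt_sq_Er (Z : Cyc X r) (f : C0 (Rips X r)) :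
    Cpt (Z.π f * (Er Z.F * Er Z.F - Er Z.F)) := by
  have h1 : Cpt (Z.π f * (Z.F - star Z.F)) := Z.c_star f
  have h2 := (Cpt.mul_right (Z.c_comm f) (Z.F - star Z.F)).add (h1.mul_left Z.F)
  have h3 := ((((Cpt.smul (Z.c_sq f) (4 : ℂ)).sub (h2.smul (2 : ℂ))).sub
    ((h1.mul_right Z.F).smul (2 : ℂ))).add (h1.mul_right (Z.F - star Z.F))).smul (1 / 16 : ℂ)
  refine (congrArg Cpt ?_).mp h3
  rw [Er]
  simp only [mul_smul_comm, smul_mul_assoc, mul_add, add_mul, mul_sub, sub_mul, mul_one, one_mul,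
    mul_assoc]
  module

lemma star_Pm (hv : Valid R T g) (hr : r ≤ R) (Z : Cyc X r) (j : ZMod m) :
    star (Pm T g (fun x y => Z.π (sq h r x * sq h r y)) j) =
      Pm T g (fun x y => Z.π (sq h r x * sq h r y)) j := by
  rw [Pm, star_mat]
  refine mat_congr fun x hx y hy => ?_
  rw [star_smul, ← map_star Z.π, star_mul (sq h r y), star_sq, star_sq]
  by_cases hxy : dist x y ≤ (R : ℝ)
  · have h1 := hv.coc x hx y hy x hx hxy (by rwa [dist_comm]) (by simp)
    rw [hv.self hx] at h1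
    rw [eq_neg_of_add_eq_zero_left h1, mul_neg, AddChar.map_neg_eq_conj]
    rfl
  · have h1 : (r : ℝ) < dist x y := (Nat.cast_le.2 hr).trans_lt (not_le.1 hxy)
    rw [sq_mul_sq_eq_zero h1, map_zero, smul_zero, smul_zero]

/-- The operator of a matrix of functions. -/
def icM (T : Finset X) (Z : Cyc X r) (a : X → X → C0 (Rips X r)) : Op (l2 X HN) :=
  mat T fun x y => Z.π (a x y)

/-- The matrix of functions of a projection. -/
def icP (h : BddGeom X) (r : ℕ) (g : X → X → ZMod m) (j : ZMod m) (x y : X) : C0 (Rips X r) :=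
  ZMod.stdAddChar (j * g x y) • (sq h r x * sq h r y)

/-- The matrix of functions of a local isomorphism. -/
def icA (h : BddGeom X) (r : ℕ) (g : X → X → ZMod m) (v : X) (j' j : ZMod m) (x y : X) :
    C0 (Rips X r) :=
  ZMod.stdAddChar (j' * g x v + j * g v y) • (sq h r x * sq h r v * sq h r y)

/-- The local trivialisation. -/
def icAl (h : BddGeom X) (φ : X → ZMod m) (t : Rips X r) (j : ZMod m) (x : X) : ℂ :=
  val (sq h r x) t * ZMod.stdAddChar (j * φ x)

lemma ic_Pm (Z : Cyc X r) (j : ZMod m) :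
    Pm T g (fun x y => Z.π (sq h r x * sq h r y)) j = icM T Z (icP h r g j) :=
  mat_congr fun _ _ _ _ => (map_smul Z.π _ _).symm

lemma ic_Am (Z : Cyc X r) (v : Fin T.card) (j' j : ZMod m) :
    Am T g (fun x v y => Z.π (sq h r x * sq h r v * sq h r y)) v j' j =
      icM T Z (icA h r g (T.equivFin.symm v) j' j) :=
  mat_congr fun _ _ _ _ => (map_smul Z.π _ _).symm

lemma ic_mul (Z : Cyc X r) (a b : X → X → C0 (Rips X r)) :
    icM T Z a * icM T Z b = icM T Z fun x z => ∑ y ∈ T, a x y * b y z := by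
  rw [icM, icM, mat_mul]
  refine mat_congr fun x _ z _ => ?_
  rw [map_sum]
  exact Finset.sum_congr rfl fun y _ => (map_mul Z.π _ _).symm

lemma ic_sum {ι : Type} (s : Finset ι) (Z : Cyc X r) (a : ι → X → X → C0 (Rips X r)) :
    ∑ i ∈ s, icM T Z (a i) = icM T Z fun x y => ∑ i ∈ s, a i x y :=
  (mat_sum s T fun i x y => Z.π (a i x y)).trans
    (mat_congr fun _ _ _ _ => (map_sum Z.π _ _).symm)

lemma ic_congr (Z : Cyc X r) {a b : X → X → C0 (Rips X r)}
    (hab : ∀ t, ∀ x ∈ T, ∀ y ∈ T, val (a x y) t = val (b x y) t) : icM T Z a = icM T Z b :=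
  mat_congr fun x hx y hy => congrArg Z.π (c0_ext fun t => hab t x hx y hy)

lemma ic_comm (Z : Cyc X r) (a : X → X → C0 (Rips X r)) :
    icM T Z a * dg X HN (Er Z.F) - dg X HN (Er Z.F) * icM T Z a ∈ (ntr (l2 X HN)).K := by
  rw [icM, mat_mul_dg, dg_mul_mat, mat_sub]
  exact mem_K.2 (Cpt.mat _ _ fun x _ y _ => cpt_comm_Er Z _)

omit [NeZero m] in
lemma ic_pot (hv : Valid R T g) (hr : r ≤ R) (t : Rips X r) : ∃ φ : X → ZMod m,
    ∀ y ∈ T, ∀ z ∈ T, t.1 y ≠ 0 → t.1 z ≠ 0 → g y z = φ y - φ z := by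
  have hd : ∀ x y, t.1 x ≠ 0 → t.1 y ≠ 0 → dist x y ≤ (R : ℝ) := fun x y hx hy =>
    (t.2.2.2.2 x y hx hy).trans (Nat.cast_le.2 hr)
  by_cases h0 : ∃ x ∈ T, t.1 x ≠ 0
  · obtain ⟨x, hx, hx'⟩ := h0
    exact ⟨fun y => g y x, fun y hy z hz hy' hz' => eq_sub_of_add_eq
      (hv.coc y hy z hz x hx (hd _ _ hy' hz') (hd _ _ hz' hx') (hd _ _ hy' hx'))⟩
  · exact ⟨0, fun y hy _ _ hy' _ => (h0 ⟨y, hy, hy'⟩).elim⟩

lemma ic_al_mul (φ : X → ZMod m) (t : Rips X r) (j : ZMod m) (x : X) :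
    icAl h φ t j x * icAl h φ t (-j) x = Complex.ofReal (t.1 x) := by
  rw [icAl, icAl, mul_mul_mul_comm, val_sq_mul_self, ← AddChar.map_add_eq_mul, neg_mul,
    add_neg_cancel, AddChar.map_zero_eq_one, mul_one]

lemma ic_one (hv : Valid R T g) (hr : r ≤ R) (φ : X → ZMod m) (t : Rips X r) (j : ZMod m) {x : X}
    (hx : x ∈ T) : icAl h φ t j x * ∑ y ∈ T, Complex.ofReal (t.1 y) = icAl h φ t j x := by
  by_cases h0 : val (sq h r x) t = 0
  · rw [icAl, h0, zero_mul, zero_mul]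
  · rw [← Complex.ofReal_sum, sum_coord t T fun y hy => hv.iso x hx y
      ((t.2.2.2.2 x y (val_sq_ne.1 h0) hy).trans (Nat.cast_le.2 hr)), Complex.ofReal_one, mul_one]

lemma ic_prod (hv : Valid R T g) (hr : r ≤ R) {φ : X → ZMod m} {t : Rips X r}
    {a b : X → X → C0 (Rips X r)} {j' j₁ j : ZMod m} {c d : ℂ}
    (ha : ∀ x ∈ T, ∀ y ∈ T, val (a x y) t = icAl h φ t j' x * c * icAl h φ t (-j₁) y)
    (hb : ∀ x ∈ T, ∀ y ∈ T, val (b x y) t = icAl h φ t j₁ x * d * icAl h φ t (-j) y)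
    (x : X) (hx : x ∈ T) (z : X) (hz : z ∈ T) :
    val (∑ y ∈ T, a x y * b y z) t = icAl h φ t j' x * (c * d) * icAl h φ t (-j) z := by
  have h1 : ∀ y ∈ T, val (a x y * b y z) t =
      icAl h φ t j' x * Complex.ofReal (t.1 y) * (c * d * icAl h φ t (-j) z) := fun y hy => by
    rw [val_mul, ha x hx y hy, hb y hy z hz, ← ic_al_mul (h := h) φ t j₁ y]
    ring
  rw [val_sum, Finset.sum_congr rfl h1, ← Finset.sum_mul, ← Finset.mul_sum, ic_one hv hr φ t j' hx]
  ring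

lemma ic_val_pf {φ : X → ZMod m} {t : Rips X r}
    (hφ : ∀ y ∈ T, ∀ z ∈ T, t.1 y ≠ 0 → t.1 z ≠ 0 → g y z = φ y - φ z) (j : ZMod m) :
    ∀ x ∈ T, ∀ y ∈ T, val (icP h r g j x y) t = icAl h φ t j x * 1 * icAl h φ t (-j) y := by
  intro x hx y hy
  show ZMod.stdAddChar (j * g x y) * (val (sq h r x) t * val (sq h r y) t) = _
  rw [icAl, icAl]
  by_cases h1 : val (sq h r x) t = 0
  · simp [h1]
  by_cases h2 : val (sq h r y) t = 0
  · simp [h2]
  rw [hφ x hx y hy (val_sq_ne.1 h1) (val_sq_ne.1 h2),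
    show j * (φ x - φ y) = j * φ x + -j * φ y by ring, AddChar.map_add_eq_mul]
  ring

lemma ic_val_af {φ : X → ZMod m} {t : Rips X r}
    (hφ : ∀ y ∈ T, ∀ z ∈ T, t.1 y ≠ 0 → t.1 z ≠ 0 → g y z = φ y - φ z) {v : X} (hv : v ∈ T)
    (j' j : ZMod m) : ∀ x ∈ T, ∀ y ∈ T, val (icA h r g v j' j x y) t =
      icAl h φ t j' x * icAl h φ t (j - j') v * icAl h φ t (-j) y := by
  intro x hx y hy
  show ZMod.stdAddChar (j' * g x v + j * g v y) *
    (val (sq h r x) t * val (sq h r v) t * val (sq h r y) t) = _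
  rw [icAl, icAl, icAl]
  by_cases h1 : val (sq h r x) t = 0
  · simp [h1]
  by_cases h2 : val (sq h r y) t = 0
  · simp [h2]
  by_cases h3 : val (sq h r v) t = 0
  · simp [h3]
  rw [hφ x hx v hv (val_sq_ne.1 h1) (val_sq_ne.1 h3), hφ v hv y hy (val_sq_ne.1 h3) (val_sq_ne.1 h2),
    show j' * (φ x - φ v) + j * (φ v - φ y) = j' * φ x + (j - j') * φ v + -j * φ y by ring,
    AddChar.map_add_eq_mul, AddChar.map_add_eq_mul]
  ring

theorem kdata_cyc (hv : Valid R T g) (hr : r ≤ R) (Z : Cyc X r) :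
    KData (ntr (l2 X HN)) (Pm T g fun x y => Z.π (sq h r x * sq h r y))
      (Am T g fun x v y => Z.π (sq h r x * sq h r v * sq h r y)) (dg X HN (Er Z.F)) := by
  have hT : ∀ v : Fin T.card, ((T.equivFin.symm v : T) : X) ∈ T := fun v => (T.equivFin.symm v).2
  refine ⟨fun j => ?_, fun v j' j => ?_, fun v j' j => ?_, fun j j' => ?_,
    fun v w j j₁ j₂ j' e => ?_, fun j => ?_, fun v j' j => ?_, fun j => ?_⟩
  · rw [ic_Pm, ic_mul]
    refine ic_congr Z fun t x hx y hy => ?_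
    obtain ⟨φ, hφ⟩ := ic_pot hv hr t
    rw [ic_prod hv hr (ic_val_pf hφ j) (ic_val_pf hφ j) x hx y hy, ic_val_pf hφ j x hx y hy,
      mul_one (1 : ℂ)]
  · rw [ic_Pm, ic_Am, ic_mul]
    refine ic_congr Z fun t x hx y hy => ?_
    obtain ⟨φ, hφ⟩ := ic_pot hv hr t
    rw [ic_prod hv hr (ic_val_pf hφ j') (ic_val_af hφ (hT v) j' j) x hx y hy,
      ic_val_af hφ (hT v) j' j x hx y hy, one_mul]
  · rw [ic_Pm, ic_Am, ic_mul]
    refine ic_congr Z fun t x hx y hy => ?_
    obtain ⟨φ, hφ⟩ := ic_pot hv hr t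
    rw [ic_prod hv hr (ic_val_af hφ (hT v) j' j) (ic_val_pf hφ j) x hx y hy,
      ic_val_af hφ (hT v) j' j x hx y hy, mul_one]
  · simp only [ic_Pm, ic_Am, ic_mul]
    rw [ic_sum]
    refine ic_congr Z fun t x hx y hy => ?_
    obtain ⟨φ, hφ⟩ := ic_pot hv hr t
    have h1 : ∀ v : Fin T.card, val (∑ z ∈ T, icA h r g (T.equivFin.symm v) j (j' v) x z *
        icA h r g (T.equivFin.symm v) (j' v) j z y) t =
        icAl h φ t j x * Complex.ofReal (t.1 (T.equivFin.symm v)) * icAl h φ t (-j) y :=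
      fun v => by
        rw [ic_prod hv hr (ic_val_af hφ (hT v) j (j' v)) (ic_val_af hφ (hT v) (j' v) j) x hx y hy,
          ← neg_sub (j' v) j, ic_al_mul]
    rw [val_sum]
    simp only [h1]
    rw [← Finset.sum_mul, ← Finset.mul_sum, Equiv.sum_comp T.equivFin.symm
      fun v : T => Complex.ofReal (t.1 v), Finset.sum_coe_sort T fun v => Complex.ofReal (t.1 v),
      ic_one hv hr φ t j hx, ic_val_pf hφ j x hx y hy, mul_one]
  · simp only [ic_Am, ic_mul]
    refine ic_congr Z fun t x hx y hy => ?_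
    obtain ⟨φ, hφ⟩ := ic_pot hv hr t
    rw [ic_prod hv hr (ic_val_af hφ (hT v) j' j₁) (ic_val_af hφ (hT w) j₁ j) x hx y hy,
      ic_prod hv hr (ic_val_af hφ (hT w) j' j₂) (ic_val_af hφ (hT v) j₂ j) x hx y hy,
      show j₁ - j' = j - j₂ by linear_combination e, show j₂ - j' = j - j₁ by linear_combination e,
      mul_comm (icAl h φ t (j - j₂) _)]
  · rw [ic_Pm]
    exact ic_comm Z _
  · rw [ic_Am]
    exact ic_comm Z _
  · rw [ic_Pm, ← map_mul, ← map_sub, icM, mat_mul_dg]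
    exact mem_K.2 (Cpt.mat _ _ fun x _ y _ => cpt_sq_Er Z _)

end

end Vale.Agent.P212
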