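import Vale.Agent.P212.InvCyc

/-! The secondary invariant respects the relations of coarse K-homology. -/

namespace Vale.Agent.P212

open Vale.Agent.P089A

noncomputable section

variable {X : Type} [MetricSpace X] {m : ℕ} [NeZero m] {R r : ℕ} {h : BddGeom X} {T : Finset X}
  {g : X → X → ZMod m}

lemma ih_star_Er (F : Op HN) : star (Er F) = Er F := by
  rw [Er, star_add, star_smul, star_smul, star_one, star_add, star_star, add_comm (star F)]
  simp

lemma ih_lift {H : Hilb} {P E : Op H} (hP : P * P = P) (sP : star P = P) (sE : star E = E)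
    (h1 : Cpt (P * E - E * P)) (h2 : Cpt (P * (E * E - E))) :
    ∃ e : Op H, (e * e = e ∧ Cpt (e - P * E)) ∧ ‖e‖ ≤ 1 := by
  have h3 : ∀ a, P * (P * a) = P * a := fun a => by rw [← mul_assoc, hP]
  obtain ⟨e, e1, -, e2, e3, -⟩ := exists_lift (b := P * E * P)
    (by rw [star_mul, star_mul, sP, sE, mul_assoc]) (by
      refine (congrArg Cpt ?_).mp ((h2.mul_right P).sub ((h1.mul_left P).mul_right (E * P)))
      simp only [mul_sub, sub_mul, mul_assoc, h3]
      abel)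
  refine ⟨e, ⟨e1, (congrArg Cpt ?_).mp (e3.sub (h1.mul_left P))⟩, e2⟩
  simp only [mul_sub, mul_assoc, h3]
  abel

lemma ih_norm {H : Hilb} {e P D : Op H} (he : ‖e‖ ≤ 1) (hP : ‖P‖ ≤ 1) (hD : ‖D‖ < 1) :
    ‖e * (P * D) * e‖ < 1 := by
  have h1 : ‖P * D‖ ≤ ‖D‖ := (norm_mul_le _ _).trans (mul_le_of_le_one_left (norm_nonneg _) hP)
  have h2 : ‖e * (P * D)‖ ≤ ‖P * D‖ :=
    (norm_mul_le _ _).trans (mul_le_of_le_one_left (norm_nonneg _) he)
  have h3 : ‖e * (P * D) * e‖ ≤ ‖e * (P * D)‖ :=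
    (norm_mul_le _ _).trans (mul_le_of_le_one_right (norm_nonneg _) he)
  linarith

omit [MetricSpace X] in
lemma ih_dist {F F' : Op HN} (hF : ‖F - F'‖ < 1) : ‖dg X HN (Er F) - dg X HN (Er F')‖ < 1 := by
  have h1 : Er F - Er F' = (1 / 4 : ℂ) • ((F - F') + star (F - F')) := by
    rw [Er, Er, star_sub]
    module
  have h2 := norm_add_le (F - F') (star (F - F'))
  rw [norm_star] at h2
  rw [← map_sub]
  refine (NonUnitalStarAlgHom.norm_apply_le (dg X HN) _).trans_lt ?_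
  rw [h1, norm_smul, show ‖(1 / 4 : ℂ)‖ = 1 / 4 by norm_num]
  linarith

omit [MetricSpace X] in
lemma ih_block (V₁ V₂ : Op HN) {M M₁ M₂ : X → X → Op HN}
    (hM : ∀ x y, M x y = V₁ * M₁ x y * star V₁ + V₂ * M₂ x y * star V₂) :
    mat T M = dg X HN V₁ * mat T M₁ * dg X HN (star V₁) +
      dg X HN V₂ * mat T M₂ * dg X HN (star V₂) := by
  rw [dg_mul_mat, dg_mul_mat, mat_mul_dg, mat_mul_dg, mat_add]
  exact mat_congr fun x _ y _ => hM x y

lemma exists_isLift (hv : Valid R T g) (hr : r ≤ R) (Z : Cyc X r) : ∃ e,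
    IsLift (ntr (l2 X HN)) (Pm T g fun x y => Z.π (sq h r x * sq h r y)) (dg X HN (Er Z.F)) e ∧
      ∀ j, ‖e j‖ ≤ 1 := by
  have hk := kdata_cyc (h := h) hv hr Z
  choose e he he' using fun j => ih_lift (hk.idem j) (star_Pm hv hr Z j)
    (by rw [← map_star, ih_star_Er]) (mem_K.1 (hk.commP j)) (mem_K.1 (hk.sq j))
  exact ⟨e, fun j => ⟨(he j).1, mem_K.2 (he j).2⟩, he'⟩

lemma CInv.exists (hv : Valid R T g) (hr : r ≤ R) (Z : Cyc X r) : ∃ t, CInv h T g Z t := by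
  obtain ⟨e, he, -⟩ := exists_isLift (h := h) hv hr Z
  obtain ⟨t, ht⟩ := InvVia.exists (kdata_cyc hv hr Z) he
  exact ⟨t, e, he, ht⟩

lemma CInv.unique (hv : Valid R T g) (hr : r ≤ R) {Z : Cyc X r} {t t' : ℂ} (ht : CInv h T g Z t)
    (ht' : CInv h T g Z t') : ∃ k : ℤ, t' - t = k :=
  IsInv.unique (fun _ _ _ _ => ind_int) (kdata_cyc hv hr Z) ht ht'

lemma CInv.near (hv : Valid R T g) (hr : r ≤ R) {Z Z' : Cyc X r} (hπ : Z'.π = Z.π)
    (hF : ‖Z'.F - Z.F‖ < 1) {t t' : ℂ} (ht : CInv h T g Z t) (ht' : CInv h T g Z' t') :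
    ∃ k : ℤ, t' - t = k := by
  have hk := kdata_cyc (h := h) hv hr Z
  have hk' := kdata_cyc (h := h) hv hr Z'
  obtain ⟨e, he, n1⟩ := exists_isLift (h := h) hv hr Z
  obtain ⟨e', he', n2⟩ := exists_isLift (h := h) hv hr Z'
  obtain ⟨s, hs⟩ := InvVia.exists hk he
  obtain ⟨s', hs'⟩ := InvVia.exists hk' he'
  obtain ⟨k₁, h1⟩ := CInv.unique hv hr ht ⟨e, he, hs⟩
  obtain ⟨k₂, h2⟩ := CInv.unique hv hr ht' ⟨e', he', hs'⟩
  rw [hπ] at hk' he' hs'
  have hP : ∀ j, ‖Pm T g (fun x y => Z.π (sq h r x * sq h r y)) j‖ ≤ 1 := fun j =>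
    IsStarProjection.norm_le _ ⟨hk.idem j, star_Pm hv hr Z j⟩
  obtain ⟨k₃, h3⟩ := InvVia.compare (fun _ _ _ _ => ind_int) hk hk' he he'
    (fun j => ih_norm (n1 j) (hP j) (ih_dist (by rwa [norm_sub_rev])))
    (fun j => ih_norm (n2 j) (hP j) (ih_dist hF)) hs hs'
  exact ⟨k₁ + k₃ - k₂, by push_cast; linear_combination h1 + h3 - h2⟩

lemma CInv.htpy (hv : Valid R T g) (hr : r ≤ R) {Z Z' : Cyc X r} (hZ : FMod.Htpy Z Z') {t t' : ℂ}
    (ht : CInv h T g Z t) (ht' : CInv h T g Z' t') : ∃ k : ℤ, t' - t = k := by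
  obtain ⟨W, h0, h1, hπ, hc⟩ := hZ
  choose τ hτ using fun s => CInv.exists (h := h) hv hr (W s)
  have hl : IsLocallyConstant fun s => ∃ k : ℤ, τ s - t = k := by
    refine (IsLocallyConstant.iff_eventually_eq _).2 fun s => ?_
    filter_upwards [hc.continuousAt.eventually (Metric.ball_mem_nhds (W s).F one_pos)] with s' hs'
    obtain ⟨k, hk⟩ := CInv.near hv hr ((hπ s').trans (hπ s).symm)
      (by rwa [← dist_eq_norm]) (hτ s) (hτ s')
    refine propext ⟨fun ⟨l, hl⟩ => ⟨l - k, ?_⟩, fun ⟨l, hl⟩ => ⟨l + k, ?_⟩⟩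
    · push_cast
      linear_combination hl - hk
    · push_cast
      linear_combination hl + hk
  have h2 : ∃ k : ℤ, τ 0 - t = k := CInv.unique hv hr ht (h0 ▸ hτ 0)
  obtain ⟨k, hk⟩ := (hl.apply_eq_of_preconnectedSpace 0 1).mp h2
  obtain ⟨l, hl⟩ := CInv.unique hv hr (h1 ▸ hτ 1) ht'
  exact ⟨k + l, by push_cast; linear_combination hk + hl⟩

lemma CInv.sum {Z Z₁ Z₂ : Cyc X r} (hZ : FMod.IsSum Z Z₁ Z₂) {t₁ t₂ : ℂ} (h₁ : CInv h T g Z₁ t₁)
    (h₂ : CInv h T g Z₂ t₂) : CInv h T g Z (t₁ + t₂) := by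
  obtain ⟨V₁, V₂, h11, h22, h1, hF, hπ⟩ := hZ
  rw [IsBlock, mul_one, mul_one] at h1
  have h12 : star V₁ * V₂ = 0 := by
    rw [← CStarRing.star_mul_self_eq_zero_iff, star_mul, star_star]
    have h2 := congrArg (fun a => star V₂ * a * V₂) h1
    simp only [mul_one, mul_add, add_mul, h22, ← mul_assoc, one_mul] at h2
    rw [← mul_assoc]
    exact left_eq_add.1 (h2.trans (add_comm _ _))
  have h21 : star V₂ * V₁ = 0 := by
    rw [← star_eq_zero, star_mul, star_star, h12]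
  refine IsInv.block (V₁ := dg X HN V₁) (W₁ := dg X HN (star V₁)) (V₂ := dg X HN V₂)
    (W₂ := dg X HN (star V₂)) (by rw [← map_mul, h11, map_one]) (by rw [← map_mul, h22, map_one])
    (by rw [← map_mul, h12, map_zero]) (by rw [← map_mul, h21, map_zero])
    (fun j => ih_block V₁ V₂ fun x y => ?_) (fun v j' j => ih_block V₁ V₂ fun x y => ?_) ?_ h₁ h₂
  · rw [mul_smul_comm, mul_smul_comm, smul_mul_assoc, smul_mul_assoc, ← smul_add]
    exact congrArg _ (hπ _)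
  · rw [mul_smul_comm, mul_smul_comm, smul_mul_assoc, smul_mul_assoc, ← smul_add]
    exact congrArg _ (hπ _)
  · simp only [← map_mul, ← map_add]
    refine congrArg _ ?_
    have hF' : Z.F = V₁ * Z₁.F * star V₁ + V₂ * Z₂.F * star V₂ := hF
    rw [Er, Er, Er, hF']
    conv_lhs => rw [h1]
    simp only [star_add, star_mul, star_star, mul_add, add_mul, mul_smul_comm, smul_mul_assoc,
      mul_one, mul_assoc]
    module

lemma CInv.push {r' : ℕ} {Z : Cyc X r} {Z' : Cyc X r'} (hZ : FMod.Along Res Z Z') {t : ℂ}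
    (ht : CInv h T g Z t) : CInv h T g Z' t := by
  have h1 : (fun x y => Z'.π (sq h r' x * sq h r' y)) = fun x y => Z.π (sq h r x * sq h r y) :=
    funext fun x => funext fun y => hZ.2 _ _ ((res_sq x).mul (res_sq y))
  have h2 : (fun x v y => Z'.π (sq h r' x * sq h r' v * sq h r' y)) =
      fun x v y => Z.π (sq h r x * sq h r v * sq h r y) :=
    funext fun x => funext fun v => funext fun y =>
      hZ.2 _ _ (((res_sq x).mul (res_sq v)).mul (res_sq y))
  have h3 : Z'.F = Z.F := hZ.1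
  rw [CInv, h1, h2, h3]
  exact ht

end

end Vale.Agent.P212
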