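import Vale.Agent.P089A.TR

/-! Indices of Koszul type operators between essential idempotents. -/

namespace Vale.Agent.P212

open Vale.Agent.P089A

noncomputable section

/-- The vertices of the `N`-cube. -/
abbrev Cube (N : ℕ) : Type := Fin N → Bool

/-- flip one coordinate -/
def flp {N : ℕ} (j : Fin N) (σ : Cube N) : Cube N := Function.update σ j (!σ j)

@[simp] lemma flp_self {N : ℕ} (j : Fin N) (σ : Cube N) : flp j σ j = !σ j := by simp [flp]

lemma flp_ne {N : ℕ} {j l : Fin N} (h : l ≠ j) (σ : Cube N) : flp j σ l = σ l := by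
  simp [flp, h]

@[simp] lemma flp_flp {N : ℕ} (j : Fin N) (σ : Cube N) : flp j (flp j σ) = σ := by
  ext l
  by_cases h : l = j
  · simp [h]
  · simp [flp_ne h]

lemma flp_comm {N : ℕ} {j l : Fin N} (h : l ≠ j) (σ : Cube N) :
    flp l (flp j σ) = flp j (flp l σ) := by
  ext r
  by_cases h1 : r = l
  · subst h1; simp [flp_ne h]
  by_cases h2 : r = j
  · subst h2; simp [flp_ne h1]
  · simp [flp_ne h1, flp_ne h2]

/-- Koszul sign -/
def sg {N : ℕ} (j : Fin N) (σ : Cube N) : ℤˣ := ∏ l with l < j, if σ l then -1 else 1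

lemma prod_flp {N : ℕ} (s : Finset (Fin N)) (j : Fin N) (σ : Cube N) {M : Type}
    [CommMonoid M] [HasDistribNeg M] : (∏ l ∈ s, if flp j σ l then (-1 : M) else 1) =
      (if j ∈ s then -1 else 1) * ∏ l ∈ s, if σ l then -1 else 1 := by
  split_ifs with h
  · rw [← Finset.mul_prod_erase _ _ h, ← Finset.mul_prod_erase _ _ h, ← mul_assoc]
    congr 1
    · cases h1 : σ j <;> simp [h1]
    · exact Finset.prod_congr rfl fun l hl => by rw [flp_ne (Finset.ne_of_mem_erase hl)]
  · rw [one_mul]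
    exact Finset.prod_congr rfl fun l hl => by rw [flp_ne (ne_of_mem_of_not_mem hl h)]

lemma sg_flp {N : ℕ} (j l : Fin N) (σ : Cube N) :
    sg l (flp j σ) = (if j < l then -1 else 1) * sg l σ := by
  simp [sg, prod_flp]

/-- parity -/
def par {N : ℕ} (σ : Cube N) : ℤ := ∏ l, if σ l then -1 else 1

lemma par_flp {N : ℕ} (j : Fin N) (σ : Cube N) : par (flp j σ) = -par σ := by
  simp [par, prod_flp]

lemma par_cases {N : ℕ} (σ : Cube N) : par σ = 1 ∨ par σ = -1 := by
  refine Finset.prod_induction _ (fun x : ℤ => x = 1 ∨ x = -1) ?_ (.inl rfl) fun l _ => ?_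
  · rintro a b (rfl | rfl) (rfl | rfl) <;> simp
  · split_ifs <;> simp

/-- degree -/
def dgr {N : ℕ} (σ : Cube N) : ℕ := ∑ l, if σ l then 1 else 0

lemma dgr_flp {N : ℕ} (j : Fin N) (σ : Cube N) :
    dgr (flp j σ) + (if σ j then 1 else 0) = dgr σ + if σ j then 0 else 1 := by
  rw [dgr, dgr, ← Finset.add_sum_erase _ _ (Finset.mem_univ j),
    ← Finset.add_sum_erase _ _ (Finset.mem_univ j), flp_self,
    Finset.sum_congr rfl fun l hl => by rw [flp_ne (Finset.ne_of_mem_erase hl)]]
  cases σ j <;> simp [add_comm]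

variable {R : Type} [NormedRing R] [CompleteSpace R] {N : ℕ}

/-- The Koszul operator. -/
def Dm (n : Fin N → Cube N → R) : Matrix (Cube N) (Cube N) R :=
  Matrix.of fun σ' σ => ∑ j, if σ' = flp j σ then sg j σ • n j σ else 0

/-- The part of given parity of a family of idempotents. -/
def prt (s : ℤ) (e : Cube N → R) : Matrix (Cube N) (Cube N) R :=
  Matrix.diagonal fun σ => if par σ = s then e σ else 0

/-- The index of the Koszul operator compressed by idempotents. -/
def KInd (ν : NTR R) (e : Cube N → R) (n : Fin N → Cube N → R) (t : ℂ) : Prop :=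
  (ν.mat (Cube N)).Ind (prt 1 e) (prt (-1) e) (prt (-1) e * Dm n * prt 1 e) t

variable {ν : NTR R} {e e' : Cube N → R} {n n' : Fin N → Cube N → R} {t t' : ℂ}

lemma KInd.unique (h : KInd ν e n t) (h' : KInd ν e n t') : t = t' := TR.Ind.unique h h'

omit [CompleteSpace R] in
lemma Kos_sq (h2 : ∀ σ j l, l ≠ j → n l (flp j σ) * n j σ = n j (flp l σ) * n l σ) :
    Dm n * Dm n = Matrix.diagonal fun σ => ∑ j, n j (flp j σ) * n j σ := by
  ext σ'' σ
  let f : Fin N × Fin N → R := fun q => if σ'' = flp q.2 (flp q.1 σ) then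
    (sg q.2 (flp q.1 σ) * sg q.1 σ) • (n q.2 (flp q.1 σ) * n q.1 σ) else 0
  have e1 : (Dm n * Dm n) σ'' σ = ∑ q, f q := by
    simp only [Matrix.mul_apply, Dm, Matrix.of_apply, Finset.mul_sum, mul_ite, mul_zero]
    rw [Finset.sum_comm, Fintype.sum_prod_type]
    refine Finset.sum_congr rfl fun j _ => ?_
    rw [Finset.sum_ite_eq', if_pos (Finset.mem_univ _), Finset.sum_mul]
    refine Finset.sum_congr rfl fun l _ => ?_
    simp only [f, ite_mul, zero_mul, smul_mul_smul_comm]
  rw [e1, ← Finset.sum_filter_add_sum_filter_not _ fun q => q.1 = q.2,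
    Finset.sum_involution (s := Finset.univ.filter fun q : Fin N × Fin N => ¬q.1 = q.2)
      (fun q _ => q.swap), add_zero]
  · rw [Finset.sum_filter, Fintype.sum_prod_type]
    simp only [Finset.sum_ite_eq, Finset.mem_univ, if_true, f, flp_flp, sg_flp, lt_irrefl,
      if_false, one_mul, Int.units_mul_self, one_smul, Matrix.diagonal_apply]
    split_ifs with h
    · rw [h]
    · simp
  · rintro ⟨j, l⟩ hq
    have hjl : j ≠ l := by simpa using hq
    simp only [f, Prod.swap_prod_mk, flp_comm hjl, h2 σ l j hjl, sg_flp]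
    split_ifs with h3 h4 h5 h5
    · exact absurd h4 (lt_asymm h5)
    · simp [mul_comm]
    · simp [mul_comm]
    · exact absurd (le_antisymm (not_lt.mp h5) (not_lt.mp h4)) hjl
    · simp
  · rintro ⟨j, l⟩ hq - h
    exact (by simpa using hq : j ≠ l) (congrArg Prod.snd h)
  · rintro ⟨j, l⟩ hq
    simpa [eq_comm] using hq
  · simp

theorem KInd.exists (he : ∀ σ, e σ * e σ = e σ)
    (hc : ∀ j σ, e (flp j σ) * n j σ - n j σ * e σ ∈ ν.K)
    (h1 : ∀ σ, (∑ j, n j (flp j σ) * n j σ) * e σ - e σ ∈ ν.K)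
    (h2 : ∀ σ j l, l ≠ j → n l (flp j σ) * n j σ = n j (flp l σ) * n l σ) :
    ∃ t, KInd ν e n t := by
  have k0 : ∀ s, prt s e * prt s e = prt s e := fun s => by
    simp only [prt, Matrix.diagonal_mul_diagonal]
    refine congrArg _ (funext fun σ => ?_)
    split_ifs
    exacts [he σ, mul_zero _]
  have k1 : ∀ s, prt (-s) e * Dm n - Dm n * prt s e ∈ (ν.mat (Cube N)).K := fun s σ' σ => by
    simp only [prt, Dm, Matrix.sub_apply, Matrix.diagonal_mul, Matrix.mul_diagonal,
      Matrix.of_apply, Finset.mul_sum, Finset.sum_mul, ← Finset.sum_sub_distrib]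
    refine ν.K.finsetSum_mem _ _ fun j _ => ?_
    by_cases h : σ' = flp j σ
    · simp only [h, par_flp, neg_inj, if_true]
      split_ifs
      · rw [mul_smul_comm, smul_mul_assoc, ← smul_sub]
        exact ν.K.zsmul_mem _ (hc j σ)
      · simp
    · simp [h]
  have k2 : ∀ s, Dm n * (Dm n * prt s e) - prt s e ∈ (ν.mat (Cube N)).K := fun s σ' σ => by
    rw [← mul_assoc, Kos_sq h2, prt, Matrix.diagonal_mul_diagonal, Matrix.diagonal_sub,
      Matrix.diagonal_apply]
    split_ifs
    · exact h1 _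
    · rw [mul_zero, sub_zero]
      exact ν.K.zero_mem
    · exact ν.K.zero_mem
  have a1 := k1 1
  have a2 := k1 (-1)
  have a3 := k2 1
  have a4 := k2 (-1)
  have a5 := fun s => congrArg (RingCon.mk' (ν.mat (Cube N)).K.ringCon) (k0 s)
  simp only [TR.sub_mem_K, map_mul, neg_neg] at a1 a2 a3 a4 a5
  refine TR.Ind.exists (S := prt 1 e * Dm n * prt (-1) e) (k0 _) (k0 _)
    (by simp only [mul_assoc, TR.as (k0 _)]) (by simp only [mul_assoc, k0]) ?_ ?_ <;>
  · rw [TR.sub_mem_K]
    simp only [map_mul, mul_assoc, TR.as a1, TR.as a2, TR.as (a5 _), a3, a4, a5]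

end

end Vale.Agent.P212
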