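import Vale.Agent.P212.Kos

/-! Comparison and additivity of Koszul indices. -/

namespace Vale.Agent.P212

open Vale.Agent.P089A

noncomputable section

variable {R : Type} [NormedRing R] [CompleteSpace R] {N : ℕ} {ν : NTR R} {e e' : Cube N → R}
  {n n' : Fin N → Cube N → R} {t t' : ℂ}

omit [CompleteSpace R] in
lemma kosB_mul (s : ℤ) (a b : Cube N → R) : prt s a * prt s b = prt s fun σ => a σ * b σ := by
  simp only [prt, Matrix.diagonal_mul_diagonal, ite_zero_mul_ite_zero, and_self]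

omit [CompleteSpace R] in
lemma kosB_sub (s : ℤ) (a b : Cube N → R) : prt s a - prt s b = prt s fun σ => a σ - b σ := by
  simp only [prt, Matrix.diagonal_sub]
  congr 1
  funext σ
  split_ifs <;> simp

omit [CompleteSpace R] in
lemma kosB_add (s : ℤ) (a b : Cube N → R) : prt s a + prt s b = prt s fun σ => a σ + b σ := by
  simp only [prt, Matrix.diagonal_add]
  congr 1
  funext σ
  split_ifs <;> simp

lemma kosB_ind (s : ℤ) {T : Cube N → R} {k : Cube N → ℂ}
    (hT : ∀ σ, ν.toTR.Ind (e σ) (e' σ) (T σ) (k σ)) :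
    (ν.mat (Cube N)).Ind (prt s e) (prt s e') (prt s T) (∑ σ, if par σ = s then k σ else 0) := by
  choose h1 h2 h3 h4 S h5 h6 h7 using hT
  have m : ∀ a : Cube N → R, (∀ σ, a σ ∈ ν.F) → prt s a ∈ (ν.mat (Cube N)).F := fun a ha i j => by
    rw [prt, Matrix.diagonal_apply]
    split_ifs
    exacts [ha _, ν.F.zero_mem, ν.F.zero_mem]
  refine ⟨by simp only [kosB_mul, h1], by simp only [kosB_mul, h2], by simp only [kosB_mul, h3],
    by simp only [kosB_mul, h4], prt s S, ?_, ?_, ?_⟩ <;> simp only [kosB_mul, kosB_sub]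
  · exact m _ h5
  · exact m _ h6
  · change _ = ∑ σ, ν.tr (prt s _ σ σ) - ∑ σ, ν.tr (prt s _ σ σ)
    rw [← Finset.sum_sub_distrib]
    refine Finset.sum_congr rfl fun σ _ => ?_
    simp only [prt, Matrix.diagonal_apply_eq]
    split_ifs
    exacts [h7 σ, (sub_self _).symm]


/-- Comparison of two systems along Fredholm intertwiners. -/
theorem KInd.compare (h : KInd ν e n t) (h' : KInd ν e' n' t') (T : Cube N → R) (k : Cube N → ℂ)
    (hT : ∀ σ, ν.toTR.Ind (e σ) (e' σ) (T σ) (k σ))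
    (hc : ∀ j σ, T (flp j σ) * n j σ * e σ - e' (flp j σ) * n' j σ * T σ ∈ ν.K) :
    t' = t - ∑ σ, (par σ : ℂ) * k σ := by
  have a1 := TR.Ind.comp h (kosB_ind (-1) hT)
  have a2 := TR.Ind.comp (kosB_ind 1 hT) h'
  have a3 := a1.congrK a2.2.2.1 a2.2.2.2.1 fun σ' σ => by
    rw [mul_assoc _ _ (prt 1 T), ← mul_assoc (prt (-1) T), ← mul_assoc (prt (-1) T), kosB_mul,
      kosB_mul]
    simp only [(hT _).2.2.1, (hT _).2.2.2.1, prt, Dm, Matrix.sub_apply, Matrix.mul_diagonal,
      Matrix.diagonal_mul, Matrix.of_apply, Finset.mul_sum, Finset.sum_mul,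
      ← Finset.sum_sub_distrib]
    refine sum_mem (S := ν.K) fun j _ => ?_
    split_ifs with h1 h2 h3 <;> try simp only [mul_zero, zero_mul, sub_self, zero_mem]
    subst h2
    simp only [mul_smul_comm, smul_mul_assoc, ← smul_sub, Units.smul_def]
    exact zsmul_mem (by simpa using neg_mem (hc j σ)) _
  have e : ∑ σ, (par σ : ℂ) * k σ = (∑ σ, if par σ = 1 then k σ else 0) -
      ∑ σ, if par σ = -1 then k σ else 0 := by
    rw [← Finset.sum_sub_distrib]
    exact Finset.sum_congr rfl fun σ _ => by rcases par_cases σ with h | h <;> simp [h]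
  linear_combination e - a3.unique a2

theorem KInd.map (Φ : R →ₙ+* R) (hΦ : ∀ x ∈ ν.F, Φ x ∈ ν.F ∧ ν.tr (Φ x) = ν.tr x)
    (h : KInd ν e n t) : KInd ν (fun σ => Φ (e σ)) (fun j σ => Φ (n j σ)) t := by
  let Ψ : Matrix (Cube N) (Cube N) R →ₙ+* Matrix (Cube N) (Cube N) R :=
    { toFun := fun M => M.map Φ
      map_mul' := fun _ _ => Matrix.map_mul
      map_zero' := Matrix.map_zero _ (map_zero Φ)
      map_add' := fun _ _ => Matrix.map_add _ (map_add Φ) _ _ }
  have e1 : ∀ s, Ψ (prt s e) = prt s fun σ => Φ (e σ) := fun s => by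
    ext i j
    change Φ (prt s e i j) = _
    simp only [prt, Matrix.diagonal_apply]
    split_ifs <;> simp
  have e2 : Ψ (Dm n) = Dm fun j σ => Φ (n j σ) := by
    ext i j
    change Φ (Dm n i j) = _
    simp only [Dm, Matrix.of_apply, map_sum, apply_ite Φ, map_zero, Units.smul_def, map_zsmul]
  have k := TR.Ind.map (τ := ν.mat (Cube N)) (τ' := ν.mat (Cube N)) Ψ (fun M hM => ⟨fun i j => (hΦ _ (hM i j)).1,
    Finset.sum_congr rfl fun i _ => (hΦ _ (hM i i)).2⟩) h
  rwa [map_mul, map_mul, e1, e1, e2] at k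

theorem KInd.add (h : KInd ν e n t) (h' : KInd ν e' n' t') (o1 : ∀ σ, e σ * e' σ = 0)
    (o2 : ∀ σ, e' σ * e σ = 0) (o3 : ∀ j σ σ', e σ' * n' j σ = 0)
    (o4 : ∀ j σ σ', e' σ' * n j σ = 0) (o5 : ∀ j σ, n j σ * e' σ = 0)
    (o6 : ∀ j σ, n' j σ * e σ = 0) :
    KInd ν (fun σ => e σ + e' σ) (fun j σ => n j σ + n' j σ) (t + t') := by
  have z : ∀ s, prt s (fun _ : Cube N => (0 : R)) = 0 := fun s => by simp [prt]
  have k := TR.Ind.add h h' (by simp only [kosB_mul, o1, z]) (by simp only [kosB_mul, o2, z])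
    (by simp only [kosB_mul, o1, z]) (by simp only [kosB_mul, o2, z])
  have l : ∀ (a : Cube N → R) (m : Fin N → Cube N → R), (∀ j σ σ', a σ' * m j σ = 0) →
      prt (-1) a * Dm m = 0 := fun a m ha => by
    ext σ' σ
    simp [prt, Dm, Finset.mul_sum, Units.smul_def, -zsmul_eq_mul, ha]
  have r : ∀ (a : Cube N → R) (m : Fin N → Cube N → R), (∀ j σ, m j σ * a σ = 0) →
      Dm m * prt 1 a = 0 := fun a m ha => by
    ext σ' σ
    simp [prt, Dm, Finset.sum_mul, Units.smul_def, mul_assoc, ha]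
  have d : (Dm fun j σ => n j σ + n' j σ) = Dm n + Dm n' := by
    ext σ' σ
    simp only [Dm, Matrix.add_apply, Matrix.of_apply, ← Finset.sum_add_distrib, smul_add]
    exact Finset.sum_congr rfl fun j _ => by split_ifs <;> simp
  rw [KInd, d, ← kosB_add, ← kosB_add, mul_add (_ + _) (Dm n), add_mul _ _ (Dm n),
    add_mul _ _ (Dm n'), l _ _ o3, l _ _ o4, add_zero, zero_add, add_mul, mul_add, mul_add,
    mul_assoc _ (Dm n) (prt 1 e'), r _ _ o5, mul_assoc _ (Dm n') (prt 1 e), r _ _ o6, mul_zero,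
    mul_zero, add_zero, zero_add]
  exact k

end

end Vale.Agent.P212
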