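import Vale.Agent.P212.Inv

/-! The invariant of a family of line bundles trivialised by an unwinding sequence. -/

namespace Vale.Agent.P212

open Vale.Agent.P089A

noncomputable section

variable {R : Type} [NormedRing R] [CompleteSpace R] {m N : ℕ} [NeZero m]

/-- An unwinding `W j` of the projections `P j`, `j : ℕ`, periodic up to the unitary `z`. -/
structure Unwind (ν : NTR R) (P : ZMod m → R) (A : Fin N → ZMod m → ZMod m → R) (E : R)
    (W W' : ℕ → R) (I E₀ z : R) (c : Fin N → Bool → R) : Prop where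
  WW' : ∀ j, W j * W' j = P j
  W'W : ∀ j, W' j * W j = I
  per : ∀ j, W (j + m) = W j * z
  E_idem : E₀ * E₀ = E₀
  IE : I * E₀ = E₀
  EI : E₀ * I = E₀
  lift : ∀ j, W j * E₀ - E * W j ∈ ν.K
  Iz : I * z = z
  ind : ν.toTR.Ind E₀ E₀ (E₀ * z * E₀) (-1)
  up : ∀ v (j : ℕ), A v (j + 1 : ℕ) j * W j = W (j + 1) * c v false
  down : ∀ v (j : ℕ), A v j (j + 1 : ℕ) * W (j + 1) = W j * c v true

omit [NeZero m] in
lemma LoopAlg_exists {ν : NTR R} {P : ZMod m → R} {A : Fin N → ZMod m → ZMod m → R} {E : R}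
    (h : KData ν P A E) (i : ZMod m) (g : Cube N → R) (h1 : ∀ σ, g σ * g σ = g σ)
    (h2 : ∀ σ, g σ - P (i + dgr σ) * E ∈ ν.K) :
    ∃ t, KInd ν g (fun l σ => A l (i + dgr (flp l σ)) (i + dgr σ)) t := by
  refine KInd.exists h1 (fun l σ => (TR.sub_mem_K (τ := ν.toTR)).2 ?_) (fun σ => ?_)
    fun σ j l hl => ?_
  · have h3 := (TR.sub_mem_K (τ := ν.toTR)).1 (h.commA l (i + dgr (flp l σ)) (i + dgr σ))
    rw [map_mul, map_mul, (TR.sub_mem_K (τ := ν.toTR)).1 (h2 _),
      (TR.sub_mem_K (τ := ν.toTR)).1 (h2 _), ← map_mul, ← map_mul, TR.as (h.right _ _ _), mul_assoc,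
      map_mul, ← h3, ← map_mul, TR.as (h.left _ _ _)]
  · simp only [flp_flp]
    rw [h.total _ fun l => i + dgr (flp l σ), ← sub_sub_sub_cancel_right _ _ (P _ * E)]
    refine ν.K.sub_mem ?_ (h2 _)
    have := ν.K.mul_mem_left (P (i + dgr σ)) _ (h2 σ)
    rwa [mul_sub, TR.as (h.idem _)] at this
  · rw [flp_comm hl]
    refine h.swap _ _ _ _ _ _ ?_
    have h1 := dgr_flp j σ
    have h2 := dgr_flp l σ
    have h3 := dgr_flp j (flp l σ)
    rw [flp_ne hl.symm] at h3
    rw [add_add_add_comm, add_add_add_comm i _ i, ← Nat.cast_add, ← Nat.cast_add,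
      show dgr (flp j σ) + dgr (flp l σ) = dgr σ + dgr (flp j (flp l σ)) by omega]

theorem isInv_unwind {ν : NTR R} {P : ZMod m → R} {A : Fin N → ZMod m → ZMod m → R} {E : R}
    {W W' : ℕ → R} {I E₀ z : R} {c : Fin N → Bool → R} (hm : 1 < m) (hN : 0 < N)
    (h : KData ν P A E) (hu : Unwind ν P A E W W' I E₀ z c) :
    ∃ ε : ℤ, (ε = 1 ∨ ε = -1) ∧ IsInv ν P A E (ε / m) := by
  obtain ⟨e, he⟩ : ∃ e : ℕ → R, ∀ j, e j = W j * E₀ * W' j := ⟨_, fun _ => rfl⟩
  have r1 := TR.as hu.E_idem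
  have r2 := fun j => TR.as (hu.W'W j)
  have r3 := TR.as hu.EI
  have e1 : ∀ j, e j * e j = e j := fun j => by simp only [he, mul_assoc, r1, r2, r3]
  have e2 : ∀ j : ℕ, e j - P j * E ∈ ν.K := fun j => by
    have := ν.K.sub_mem (ν.K.mul_mem_right _ (W' j) (hu.lift j)) (h.commP j)
    rwa [sub_mul, mul_assoc E, hu.WW', sub_sub_sub_comm, sub_self, sub_zero, ← he] at this
  have e3 : ∀ j j' : ℕ, (j : ZMod m) = j' →
      RingCon.mk' ν.toTR.K.ringCon (e j) = RingCon.mk' ν.toTR.K.ringCon (e j') := fun j j' hj =>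
    (TR.sub_mem_K.1 (e2 j)).trans (hj ▸ (TR.sub_mem_K.1 (e2 j')).symm)
  have e4 := fun j => (map_mul (RingCon.mk' ν.toTR.K.ringCon) _ _).symm.trans (congrArg _ (e1 j))
  have i1 : ∀ j, ν.toTR.Ind (e (j + m)) (e j) (e j * e (j + m)) (-1) := fun j => by
    have a1 : ν.toTR.Ind (e (j + m)) E₀ (E₀ * W' (j + m)) 0 :=
      .of_inv (S := W (j + m) * E₀) (e1 _) hu.E_idem (r1 _)
        (by simp only [he, mul_assoc, r1, r2, r3]) (by simp only [he, mul_assoc, r1])
        (by simp only [mul_assoc, r2, r3, hu.E_idem])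
    have a2 : ν.toTR.Ind E₀ (e j) (W j * E₀) 0 :=
      .of_inv (S := E₀ * W' j) hu.E_idem (e1 _) (by simp only [he, mul_assoc, r2, r3, hu.E_idem])
        (by rw [mul_assoc, hu.E_idem]) (by simp only [mul_assoc, r2, r3, hu.E_idem])
        (by simp only [he, mul_assoc, r1])
    simpa only [he, mul_assoc, hu.per, r1, r2, r3, zero_add, add_zero] using
      (a1.comp hu.ind).comp a2
  have i2 : ∀ r q : ℕ, ν.toTR.Ind (e (r + m * q)) (e r) (e r * e (r + m * q)) (-q) := by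
    intro r q
    induction q with
    | zero => simpa [e1] using TR.Ind.of_inv (τ := ν.toTR) (e1 r) (e1 r) (e1 r) (e1 r) (e1 r) (e1 r)
    | succ q ih =>
      have a1 := (i1 (r + m * q)).comp ih
      rw [Nat.cast_succ, neg_add_rev, mul_add_one, ← add_assoc]
      refine a1.congrK (TR.as (e1 _) _) (by rw [mul_assoc, e1]) (TR.sub_mem_K.2 ?_)
      simp only [map_mul, e3 (r + m * q) r (by simp), e3 (r + m * q + m) r (by simp), e4]
  choose u hu' using fun J : ℕ => LoopAlg_exists h J (fun σ => e (J + dgr σ)) (fun σ => e1 _)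
    fun σ => Nat.cast_add (R := ZMod m) _ _ ▸ e2 _
  have k1 : ∀ J, u J = u 0 := fun J => by
    have := (hu' 0).compare (hu' J) (fun σ => W (J + dgr σ) * E₀ * W' (0 + dgr σ)) (fun _ => 0)
      (fun σ => .of_inv (S := W (0 + dgr σ) * E₀ * W' (J + dgr σ)) (e1 _) (e1 _) ?_ ?_ ?_ ?_)
      fun l σ => ?_
    · simpa using this
    iterate 4 simp only [he, mul_assoc, r1, r2, r3]
    have a1 : ∀ J : ℕ, A l (J + dgr (flp l σ)) (J + dgr σ) * W (J + dgr σ) =
        W (J + dgr (flp l σ)) * c l (σ l) := fun J => by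
      have a2 := dgr_flp l σ
      rw [← Nat.cast_add, ← Nat.cast_add]
      cases a3 : σ l
      · rw [show dgr (flp l σ) = dgr σ + 1 by simpa [a3] using a2, ← add_assoc, hu.up]
      · rw [show dgr σ = dgr (flp l σ) + 1 by simpa [a3] using a2.symm, ← add_assoc, hu.down]
    simp only [he, mul_assoc, TR.as (a1 _), r2, r3, sub_self, ν.K.zero_mem]
  have hl : IsLift ν P E fun i => e i.val := fun i => ⟨e1 _, by simpa using e2 i.val⟩
  obtain ⟨t, v, hv, ht⟩ := InvVia.exists h hl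
  refine ⟨-1, .inr rfl, _, hl, v, hv, ?_⟩
  have hm' : (m : ℂ) ≠ 0 := Nat.cast_ne_zero.2 (NeZero.ne m)
  have k2 : ∀ i : ZMod m, m * v i = m * u 0 + ∑ σ : Cube N, (par σ : ℂ) * dgr σ -
      ∑ σ : Cube N, (par σ : ℂ) * (i + dgr σ).val := fun i => by
    have a1 : ∀ σ : Cube N, (i + dgr σ).val + m * ((i.val + dgr σ) / m) = i.val + dgr σ :=
      fun σ => by rw [ZMod.val_add, ZMod.val_natCast, Nat.add_mod_mod, Nat.mod_add_div]
    have a2 := hu' i.val
    rw [ZMod.natCast_zmod_val, k1] at a2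
    have a3 := a2.compare (hv i) (fun σ => e (i + dgr σ).val * e (i.val + dgr σ))
      (fun σ => -((i.val + dgr σ) / m : ℕ)) (fun σ => by
        simpa only [a1] using i2 (i + dgr σ).val ((i.val + dgr σ) / m))
      fun l σ => by
        have b2 := fun σ : Cube N => e3 (i.val + dgr σ) (i + dgr σ).val (by simp)
        refine (TR.sub_mem_K (τ := ν.toTR)).2 ?_
        simp only [map_mul, b2, mul_assoc, e4, TR.as (e4 _)]
    obtain ⟨N, rfl⟩ := Nat.exists_eq_succ_of_ne_zero hN.ne'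
    have a4 := Inv_succ (N := N) (fun _ : ZMod m => (i.val : ℂ)) 0
    rw [sub_self] at a4
    rw [a3, mul_sub, Finset.mul_sum, add_sub_assoc, sub_eq_add_neg, add_right_inj,
      ← zero_add (Finset.sum _ _ - _), ← a4, ← add_sub_assoc, ← Finset.sum_add_distrib,
      ← Finset.sum_sub_distrib, ← Finset.sum_neg_distrib]
    refine Finset.sum_congr rfl fun σ _ => ?_
    have a5 := congrArg (Nat.cast (R := ℂ)) (a1 σ)
    rw [Nat.cast_add, Nat.cast_mul, Nat.cast_add] at a5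
    linear_combination (par σ : ℂ) * a5
  have k3 := lam_spec N fun i : ZMod m => (i.val : ℂ)
  have : Fact (1 < m) := ⟨hm⟩
  rw [ZMod.val_one, ZMod.val_zero] at k3
  rw [div_eq_iff hm', Finset.sum_mul]
  simp only [mul_assoc, mul_comm (v _), k2, mul_sub, Finset.sum_sub_distrib, k3, ← Finset.sum_mul,
    sum_lam]
  simp

end

end Vale.Agent.P212
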