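import Vale.Agent.P212.LoopAlg
import Vale.Agent.P212.LoopCyc
import Vale.Agent.P212.InvCyc

/-! The invariant of the loop cycle. -/

namespace Vale.Agent.P212

open Vale.Agent.P089A

noncomputable section

section corner

variable {X : Type} {H : Hilb} (T : Finset X) (x₀ : X)

open Classical in
/-- A column placed at `x₀`. -/
def colM (u : X → Op H) : Op (l2 X H) := mat T fun x y => if y = x₀ then u x else 0

open Classical in
/-- A row placed at `x₀`. -/
def rowM (u : X → Op H) : Op (l2 X H) := mat T fun x y => if x = x₀ then u y else 0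

open Classical in
/-- An operator placed at the corner `x₀`. -/
def corM (a : Op H) : Op (l2 X H) := colM T x₀ fun x => if x = x₀ then a else 0

variable {T x₀}

lemma colM_congr {u v : X → Op H} (h : ∀ x ∈ T, u x = v x) : colM T x₀ u = colM T x₀ v :=
  mat_congr fun x hx y _ => by rw [h x hx]

lemma mat_mul_colM (M : X → X → Op H) (u : X → Op H) :
    mat T M * colM T x₀ u = colM T x₀ fun x => ∑ y ∈ T, M x y * u y := by
  rw [colM, mat_mul]
  refine mat_congr fun x _ y _ => ?_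
  split_ifs <;> simp

lemma colM_mul_rowM (hx : x₀ ∈ T) (u v : X → Op H) :
    colM T x₀ u * rowM T x₀ v = mat T fun x y => u x * v y := by
  rw [colM, rowM, mat_mul]
  refine mat_congr fun x _ y _ => ?_
  rw [Finset.sum_eq_single_of_mem x₀ hx fun z _ hz => by rw [if_neg hz, zero_mul], if_pos rfl,
    if_pos rfl]

lemma rowM_mul_colM (u v : X → Op H) :
    rowM T x₀ v * colM T x₀ u = corM T x₀ (∑ x ∈ T, v x * u x) := by
  rw [rowM, mat_mul_colM]
  refine colM_congr fun x _ => ?_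
  split_ifs <;> simp

lemma colM_mul_corM (hx : x₀ ∈ T) (u : X → Op H) (a : Op H) :
    colM T x₀ u * corM T x₀ a = colM T x₀ fun x => u x * a := by
  rw [colM, corM, mat_mul_colM]
  refine colM_congr fun x _ => ?_
  rw [Finset.sum_eq_single_of_mem x₀ hx fun z _ hz => by rw [if_neg hz, zero_mul], if_pos rfl,
    if_pos rfl]

lemma corM_mul (hx : x₀ ∈ T) (a b : Op H) : corM T x₀ a * corM T x₀ b = corM T x₀ (a * b) := by
  rw [corM, colM_mul_corM hx]
  refine colM_congr fun x _ => ?_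
  split_ifs <;> simp

lemma cpt_colM_sub (u : X → Op H) (E : Op H) (v : X → Op H) (h : ∀ x, Cpt (u x - E * v x)) :
    Cpt (colM T x₀ u - dg X H E * colM T x₀ v) := by
  rw [colM, colM, dg_mul_mat, mat_sub]
  refine Cpt.mat _ _ fun x _ y _ => ?_
  split_ifs
  · exact h x
  · rw [mul_zero, sub_zero]
    exact Cpt.zero

lemma corM_eq (hx : x₀ ∈ T) (a : Op H) : corM T x₀ a = inc x₀ ∘L a ∘L ev x₀ := by
  rw [corM, colM, mat, Finset.sum_eq_single_of_mem x₀ hx, Finset.sum_eq_single_of_mem x₀ hx,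
    if_pos rfl, if_pos rfl]
  · intro y _ hy
    simp [hy]
  · intro x _ hx
    simp [hx]

lemma corM_sub (hx : x₀ ∈ T) (a b : Op H) : corM T x₀ a - corM T x₀ b = corM T x₀ (a - b) := by
  simp only [corM_eq hx, ContinuousLinearMap.sub_comp, ContinuousLinearMap.comp_sub]

lemma corM_rankOne (hx : x₀ ∈ T) (a : H.car) : corM T x₀ (InnerProductSpace.rankOne ℂ a a) =
    InnerProductSpace.rankOne ℂ (inc x₀ a : (l2 X H).car) (inc x₀ a : (l2 X H).car) := by
  rw [corM_eq hx, InnerProductSpace.rankOne_comp, InnerProductSpace.comp_rankOne]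
  exact congrArg (fun T : Hom H (l2 X H) => InnerProductSpace.rankOne ℂ (inc x₀ a) (T a))
    (adj_ev x₀)

/-- The index of the compressed shift. -/
lemma ind_corM (hx : x₀ ∈ T) {S E u : Op H} {δ : H.car} (hS : star S * S = 1)
    (hE' : E * E = E) (hu : star u * u = 1) (h1 : E * u * E = u * E)
    (h2 : E - u * E * star u = InnerProductSpace.rankOne ℂ δ δ) (h3 : ‖δ‖ = 1) :
    (ntr (l2 X H)).toTR.Ind (corM T x₀ (S * E * star S)) (corM T x₀ (S * E * star S))
      (corM T x₀ (S * E * star S) * corM T x₀ (S * u * star S) * corM T x₀ (S * E * star S))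
      (-1) := by
  have ad : ∀ a b : Op H, corM T x₀ (S * a * star S) * corM T x₀ (S * b * star S) =
      corM T x₀ (S * (a * b) * star S) := fun a b => by
    rw [corM_mul hx]
    simp only [mul_assoc, TR.as hS, one_mul]
  have e1 : corM T x₀ (S * E * star S) - corM T x₀ (S * (E * star u * (u * E)) * star S) = 0 := by
    rw [mul_assoc E, TR.as hu, one_mul, hE', sub_self]
  have hv : ‖(inc x₀ (S δ) : (l2 X H).car)‖ = 1 := by
    rw [norm_inc_apply, ← h3]
    have : inner ℂ (S δ) (S δ) = inner ℂ δ δ := by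
      rw [← inner_adj_right]
      exact congrArg (fun T : Op H => inner ℂ δ (T δ)) hS
    rw [inner_self_eq_norm_sq_to_K, inner_self_eq_norm_sq_to_K] at this
    exact (sq_eq_sq₀ (norm_nonneg _) (norm_nonneg _)).1 (by exact_mod_cast this)
  have e2 : corM T x₀ (S * E * star S) - corM T x₀ (S * (u * E * (E * star u)) * star S) =
      InnerProductSpace.rankOne ℂ (inc x₀ (S δ) : (l2 X H).car) (inc x₀ (S δ) : (l2 X H).car) := by
    rw [← corM_rankOne hx, corM_sub hx, ← sub_mul, ← mul_sub, mul_assoc u, TR.as hE',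
      ← mul_assoc u, h2]
    congr 1
    show (S ∘L InnerProductSpace.rankOne ℂ δ δ) ∘L adj S = _
    rw [InnerProductSpace.comp_rankOne, InnerProductSpace.rankOne_comp]
    exact congrArg (fun T : Op H => InnerProductSpace.rankOne ℂ (S δ) (T δ)) (adj_adj S)
  rw [ad, ad, h1]
  refine ⟨by rw [ad, hE'], by rw [ad, hE'], by rw [ad, ← mul_assoc E, h1],
    by rw [ad, mul_assoc u, hE'], corM T x₀ (S * (E * star u) * star S), ?_, ?_, ?_⟩
  · rw [ad, e1]
    exact zero_mem _
  · rw [ad, e2]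
    exact rankOne_mem_F _ _
  · rw [ad, ad, e1, e2, TR.tr_zero]
    show -1 = 0 - (ntr _).tr _
    rw [tr_rankOne, inner_self_eq_norm_sq_to_K, hv]
    simp

end corner

variable {X : Type} [MetricSpace X] {Ω : Type} [TopologicalSpace Ω] {m : ℕ} [NeZero m]

/-- The local phase functions. -/
def phase (m : ℕ) (ψ : C(Ω, ℝ)) (j : ℤ) : C(Ω, ℂ) :=
  ⟨fun ω => Complex.exp (2 * Real.pi * Complex.I * (j * (ψ ω : ℂ)) / m), by fun_prop⟩

lemma phase_add (m : ℕ) (ψ : C(Ω, ℝ)) (i j : ℤ) (ω : Ω) :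
    phase m ψ (i + j) ω = phase m ψ i ω * phase m ψ j ω := by
  simp only [phase, ContinuousMap.coe_mk, ← Complex.exp_add]
  congr 1
  push_cast
  ring

lemma phase_neg (m : ℕ) (ψ : C(Ω, ℝ)) (j : ℤ) (ω : Ω) : phase m ψ (-j) ω * phase m ψ j ω = 1 := by
  rw [← phase_add, neg_add_cancel]
  simp [phase]

lemma phase_self (ψ : C(Ω, ℝ)) (ω : Ω) :
    phase m ψ m ω = Complex.exp (2 * Real.pi * Complex.I * (ψ ω : ℂ)) := by
  have : (m : ℂ) ≠ 0 := by exact_mod_cast NeZero.ne m
  simp only [phase, ContinuousMap.coe_mk]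
  congr 1
  push_cast
  field_simp

lemma phase_jump {ψ ψ' : C(Ω, ℝ)} {ω : Ω} {i : ℤ} (h : ψ ω - ψ' ω = i) (j : ℤ) :
    ZMod.stdAddChar ((j : ZMod m) * (i : ZMod m)) = phase m ψ j ω * phase m ψ' (-j) ω := by
  have h' : (i : ℂ) = ψ ω - ψ' ω := by exact_mod_cast h.symm
  rw [← Int.cast_mul, ZMod.stdAddChar_coe]
  simp only [phase, ContinuousMap.coe_mk, ← Complex.exp_add]
  congr 1
  push_cast
  rw [h']
  ring

theorem cinv_loop (h : BddGeom X) (lo : Loops X) {τ : Toep Ω} {γ : ℕ → C(Ω, Rips X 1)}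
    {ψ : ℕ → X → C(Ω, ℝ)} (hγ : ∀ n, IsLoopMap lo n τ.ζ (γ n) (ψ n)) {S : ℕ → Op HN} {Z : Cyc X 1}
    (hZ : IsLoopCyc τ γ S Z) {R n : ℕ} (hR : 1 ≤ R) (hm : 1 < m) {T : Finset X}
    {g : X → X → ZMod m} (hv : Valid R T g) (hl : LoopOK lo n T g) :
    ∃ ε : ℤ, (ε = 1 ∨ ε = -1) ∧ CInv h T g Z (ε / m) := by
  have hx : lo.lp n 0 ∈ T := (hl.mem _ _).2 rfl
  let Φ : C(Ω, ℂ) → Op HN := fun f => S n * τ.φ f * star (S n)
  have Φmul : ∀ f f', Φ f * Φ f' = Φ (f * f') := fun f f' => by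
    simp only [Φ, map_mul, mul_assoc, TR.as (hZ.iso n), one_mul]
  have Φsmul : ∀ (c : ℂ) f, c • Φ f = Φ (c • f) := fun c f => by
    simp only [Φ, map_smul, mul_smul_comm, smul_mul_assoc]
  have Φsum : ∀ f : X → C(Ω, ℂ), ∑ x ∈ T, Φ (f x) = Φ (∑ x ∈ T, f x) := fun f => by
    simp only [Φ, map_sum, Finset.mul_sum, Finset.sum_mul]
  let s : X → C(Ω, ℂ) := fun x => onLoop (γ n) (sq h 1 x)
  have hπ : ∀ x ∈ T, ∀ f, Z.π (sq h 1 x * f) = Φ (s x * onLoop (γ n) f) := fun x hx f =>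
    hZ.rep n _ fun n' hn' => ContinuousMap.ext fun ω => by
      rw [onLoop_apply, val_mul]
      refine mul_eq_zero_of_left (of_not_not fun h0 => ?_) _
      obtain ⟨k, rfl⟩ := (hγ n').mem ω x (val_sq_ne.1 h0)
      exact hn' ((hl.mem _ _).1 hx)
  have F1 : ∀ ω, ∑ x ∈ T, s x ω * s x ω = 1 := fun ω => by
    simp only [s, onLoop_apply, val_sq_mul_self]
    rw [← Complex.ofReal_sum, sum_coord _ _ fun x hx => ?_, Complex.ofReal_one]
    obtain ⟨k, rfl⟩ := (hγ n).mem ω x hx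
    exact (hl.mem _ _).2 rfl
  have F4 : ∀ ω x y, s x ω ≠ 0 → s y ω ≠ 0 → ∀ j : ℤ, ZMod.stdAddChar ((j : ZMod m) * g x y) =
      phase m (ψ n x) j ω * phase m (ψ n y) (-j) ω := fun ω x y h1 h2 j => by
    obtain ⟨i, hi, hi'⟩ := (hγ n).jump ω x y (val_sq_ne.1 h1) (val_sq_ne.1 h2)
    obtain ⟨k, rfl⟩ := (hγ n).mem ω x (val_sq_ne.1 h1)
    obtain ⟨k', rfl⟩ := (hγ n).mem ω y (val_sq_ne.1 h2)
    rw [hl.val k k' i hi', phase_jump hi]
  let W : ℤ → Op (l2 X HN) := fun j => colM T (lo.lp n 0) fun x => Φ (s x * phase m (ψ n x) j)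
  have key : ∀ (v : Fin T.card) (j' j : ℤ),
      Am T g (fun x v y => Z.π (sq h 1 x * sq h 1 v * sq h 1 y)) v j' j * W j =
        W j' * corM T (lo.lp n 0)
          (Φ (s (T.equivFin.symm v) * phase m (ψ n (T.equivFin.symm v)) (j - j'))) := by
    intro v j' j
    rw [Am, mat_mul_colM, colM_mul_corM hx]
    refine colM_congr fun x hx => ?_
    generalize (T.equivFin.symm v : X) = v
    simp only [mul_assoc (sq h 1 x), hπ x hx, Φsmul, Φmul, Φsum]
    congr 1
    ext ω
    rw [ContinuousMap.sum_apply, ← mul_one (DFunLike.coe (_ * _ * _) ω), ← F1 ω, Finset.mul_sum]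
    refine Finset.sum_congr rfl fun y _ => ?_
    show ZMod.stdAddChar _ * (s x ω * (s v ω * s y ω)) * (s y ω * phase m (ψ n y) j ω) =
      s x ω * phase m (ψ n x) j' ω * (s v ω * phase m (ψ n v) (j - j') ω) * (s y ω * s y ω)
    by_cases h1 : s x ω = 0
    · simp [h1]
    by_cases h2 : s v ω = 0
    · simp [h2]
    by_cases h3 : s y ω = 0
    · simp [h3]
    rw [AddChar.map_add_eq_mul, F4 ω x v h1 h2, F4 ω v y h2 h3, sub_eq_add_neg, phase_add]
    linear_combination s x ω * s v ω * s y ω * s y ω * phase m (ψ n x) j' ω *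
      phase m (ψ n v) (-j') ω * phase m (ψ n v) j ω * phase_neg m (ψ n y) j ω
  have hE : Er Z.F * S n = S n * τ.E := by
    rw [Er, hZ.sa, add_mul, smul_mul_assoc, smul_mul_assoc, add_mul, hZ.F_S, one_mul, mul_sub,
      mul_smul_comm, mul_one]
    module
  refine isInv_unwind (W := fun j => W j)
    (W' := fun j => rowM T (lo.lp n 0) fun x => Φ (s x * phase m (ψ n x) (-j)))
    (I := corM T (lo.lp n 0) (Φ 1)) (E₀ := corM T (lo.lp n 0) (S n * τ.E * star (S n)))
    (z := corM T (lo.lp n 0) (Φ τ.ζ))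
    (c := fun v b => corM T (lo.lp n 0) (Φ (s (T.equivFin.symm v) *
      phase m (ψ n (T.equivFin.symm v)) (if b then 1 else -1)))) hm (Finset.card_pos.2 ⟨_, hx⟩)
    (kdata_cyc hv hR Z) ⟨fun j => ?_, fun j => ?_, fun j => ?_, ?_, ?_, ?_, fun j => ?_, ?_,
      ind_corM hx (hZ.iso n) τ.E_idem ?_ τ.inv τ.defect τ.norm_δ, fun v j => ?_,
      fun v j => ?_⟩
  · rw [colM_mul_rowM hx]
    refine mat_congr fun x hx y _ => ?_
    simp only [hπ x hx, Φsmul, Φmul]
    congr 1
    ext ω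
    show s x ω * phase m (ψ n x) j ω * (s y ω * phase m (ψ n y) (-j) ω) =
      ZMod.stdAddChar _ * (s x ω * s y ω)
    by_cases h1 : s x ω = 0
    · simp [h1]
    by_cases h2 : s y ω = 0
    · simp [h2]
    rw [← Int.cast_natCast (R := ZMod m), F4 ω x y h1 h2]
    ring
  · rw [rowM_mul_colM]
    simp only [Φmul, Φsum]
    congr 2
    ext ω
    rw [ContinuousMap.sum_apply, ContinuousMap.one_apply, ← F1 ω]
    refine Finset.sum_congr rfl fun x _ => ?_
    show s x ω * phase m (ψ n x) (-j) ω * (s x ω * phase m (ψ n x) j ω) = _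
    linear_combination s x ω * s x ω * phase_neg m (ψ n x) j ω
  · rw [colM_mul_corM hx]
    refine colM_congr fun x _ => ?_
    rw [Φmul]
    congr 1
    ext ω
    show s x ω * phase m (ψ n x) ((j + m : ℕ) : ℤ) ω = s x ω * phase m (ψ n x) j ω * τ.ζ ω
    by_cases h1 : s x ω = 0
    · simp [h1]
    rw [Nat.cast_add, phase_add, phase_self, (hγ n).phase ω x (val_sq_ne.1 h1), mul_assoc]
  · rw [corM_mul hx]
    simp only [mul_assoc, TR.as (hZ.iso n), one_mul, TR.as τ.E_idem]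
  · rw [corM_mul hx]
    simp only [Φ, map_one, mul_assoc, TR.as (hZ.iso n), one_mul]
  · rw [corM_mul hx]
    simp only [Φ, map_one, mul_assoc, TR.as (hZ.iso n), one_mul]
  · rw [colM_mul_corM hx, mem_K]
    refine cpt_colM_sub _ _ _ fun x => ?_
    have := ((τ.comm (s x * phase m (ψ n x) j)).mul_left (S n)).mul_right (star (S n))
    rwa [show S n * (τ.φ (s x * phase m (ψ n x) j) * τ.E - τ.E * τ.φ (s x * phase m (ψ n x) j)) *
      star (S n) = Φ (s x * phase m (ψ n x) j) * (S n * τ.E * star (S n)) -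
        Er Z.F * Φ (s x * phase m (ψ n x) j) by
      simp only [Φ, mul_sub, sub_mul, mul_assoc, TR.as (hZ.iso n), one_mul, TR.as hE]] at this
  · rw [corM_mul hx, Φmul, one_mul]
  · rw [← map_star, ← map_mul, ← map_one τ.φ]
    congr 1
    ext ω
    show (starRingEnd ℂ) (τ.ζ ω) * τ.ζ ω = 1
    rw [Complex.conj_mul', τ.norm_ζ]
    simp
  · have := key v (j + 1 : ℕ) j
    rwa [Int.cast_natCast, Int.cast_natCast, show (j : ℤ) - (j + 1 : ℕ) = -1 by push_cast; ring]
      at this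
  · have := key v j (j + 1 : ℕ)
    rwa [Int.cast_natCast, Int.cast_natCast, show ((j + 1 : ℕ) : ℤ) - j = 1 by push_cast; ring]
      at this

end

end Vale.Agent.P212
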